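import Crest.Agent.R120.Link

/-! The algebra generated by the CAR algebra and a family of links; excision. -/

set_option autoImplicit false
set_option linter.unusedSectionVars false
set_option linter.unusedVariables false

namespace Crest.Agent.R120

open scoped InnerProductSpace ComplexConjugate
open Finset Filter Topology

noncomputable section

/-- a maximal family of pairwise disjoint links -/
structure Fam (L : Set B) : Prop where
  one : (1 : B) ∈ L
  link : ∀ u ∈ L, IsLink u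
  orth : L.Pairwise Orth
  max : ∀ w, IsLink w → ¬ ∀ u ∈ L, Orth u w

theorem exists_fam : ∃ L, Fam L := by
  obtain ⟨L, h1, h2, h3, h4⟩ := exists_maximal
  exact ⟨L, h1, h2, h3, h4⟩

/-- the counterexample -/
def Alg (L : Set B) : StarSubalgebra ℂ B :=
  (StarAlgebra.adjoin ℂ ((A₀ : Set B) ∪ L)).topologicalClosure

instance isClosed_Alg (L : Set B) : IsClosed (Alg L : Set B) :=
  StarSubalgebra.isClosed_topologicalClosure _

instance (L : Set B) : CStarAlgebra (Alg L) := StarSubalgebra.cstarAlgebra _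

variable {L : Set B}

theorem A₀_le : A₀ ≤ Alg L := fun a ha =>
  StarSubalgebra.le_topologicalClosure _ (StarAlgebra.subset_adjoin ℂ _ (Or.inl ha))

theorem mem_Alg {u : B} (hu : u ∈ L) : u ∈ Alg L :=
  StarSubalgebra.le_topologicalClosure _ (StarAlgebra.subset_adjoin ℂ _ (Or.inr hu))

theorem gen_induction (T : Subalgebra ℂ B) (hT : IsClosed (T : Set B)) (h₀ : ∀ a ∈ A₀, a ∈ T)
    (h₁ : ∀ u ∈ L, u ∈ T ∧ star u ∈ T) {x : B} (hx : x ∈ Alg L) : x ∈ T := by
  have : (StarAlgebra.adjoin ℂ ((A₀ : Set B) ∪ L)).toSubalgebra ≤ T := by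
    rw [StarAlgebra.adjoin_toSubalgebra, Algebra.adjoin_le_iff]
    rintro y ((hy | hy) | hy)
    · exact h₀ y hy
    · exact (h₁ y hy).1
    · rcases Set.mem_star.1 hy with hy | hy
      · exact h₀ y (by simpa using star_mem hy)
      · simpa using (h₁ _ hy).2
  exact closure_minimal this hT hx

theorem left_induction (N : Submodule ℂ B) (hN : IsClosed (N : Set B)) (h1 : (1 : B) ∈ N)
    (h₀ : ∀ a ∈ A₀, ∀ b ∈ N, a * b ∈ N)
    (h₁ : ∀ u ∈ L, (∀ b ∈ N, u * b ∈ N) ∧ ∀ b ∈ N, star u * b ∈ N) {x : B} (hx : x ∈ Alg L) :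
    x ∈ N := by
  let T : Subalgebra ℂ B :=
    { carrier := {t | ∀ b ∈ N, t * b ∈ N}
      mul_mem' := fun hs ht b hb => by rw [mul_assoc]; exact hs _ (ht b hb)
      add_mem' := fun hs ht b hb => by rw [add_mul]; exact add_mem (hs b hb) (ht b hb)
      algebraMap_mem' := fun c b hb => by
        rw [← Algebra.smul_def]; exact N.smul_mem c hb }
  have hT : IsClosed (T : Set B) := by
    have : (T : Set B) = ⋂ b ∈ N, (fun t => t * b) ⁻¹' (N : Set B) := by
      ext t; simp only [Set.mem_iInter]; rfl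
    rw [this]
    exact isClosed_biInter fun b _ => hN.preimage (by fun_prop)
  simpa using gen_induction T hT h₀ h₁ hx 1 h1

theorem Fam.mem_R (hL : Fam L) {x : B} (hx : x ∈ Alg L) : x ∈ R :=
  gen_induction R.toSubalgebra isClosed_R (fun a ha => mem_R_of_A₀ ha)
    (fun u hu => ⟨(hL.link u hu).mem_R, (star_mem (hL.link u hu).mem_R : _ ∈ R)⟩) hx

theorem Fam.exc (hL : Fam L) {u w a : B} (hu : u ∈ L) (hw : w ∈ L) (ha : a ∈ A₀) :
    star u * a * w ∈ 𝓔 := by
  by_cases h : u = w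
  · subst h; exact (hL.link u hu).exc a ha
  · exact (hL.orth hu hw h a ha).mem_𝓔

/-- elements killed on the right by some product projection -/
def L₀ : Submodule ℂ B where
  carrier := {x | ∃ n, x * 𝔩.P n = 0}
  zero_mem' := ⟨0, zero_mul _⟩
  add_mem' := by
    rintro x y ⟨n, hn⟩ ⟨m, hm⟩
    refine ⟨max n m, ?_⟩
    rw [add_mul, ← 𝔩.P_mul_P (le_max_left n m), ← mul_assoc, hn, 𝔩.P_mul_P (le_max_left n m),
      ← 𝔩.P_mul_P (le_max_right n m), ← mul_assoc y, hm]
    simp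
  smul_mem' := by
    rintro c x ⟨n, hn⟩
    exact ⟨n, by rw [smul_mul_assoc, hn, smul_zero]⟩

theorem mul_one_sub_mem_L₀ (x : B) (n : ℕ) : x * (1 - 𝔩.P n) ∈ L₀ :=
  ⟨n, by rw [mul_assoc, sub_mul, one_mul, 𝔩.P_mul_self, sub_self, mul_zero]⟩

theorem Fam.mem_𝓔 (hL : Fam L) {x : B} (hx : x ∈ Alg L) : x ∈ 𝓔 := by
  let S : Submodule ℂ B := Submodule.span ℂ {y | ∃ a ∈ A₀, ∃ γ ∈ L, y = a * γ}
  let N : Submodule ℂ B := (S ⊔ L₀).topologicalClosure
  have hN : IsClosed (N : Set B) := Submodule.isClosed_topologicalClosure _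
  have hS : ∀ a ∈ A₀, ∀ γ ∈ L, a * γ ∈ S ⊔ L₀ := fun a ha γ hγ =>
    Submodule.mem_sup_left (Submodule.subset_span ⟨a, ha, γ, hγ, rfl⟩)
  have hle : S ⊔ L₀ ≤ N := Submodule.le_topologicalClosure _
  have key : ∀ t : B, (∀ a ∈ A₀, ∀ γ ∈ L, t * (a * γ) ∈ N) → ∀ b ∈ N, t * b ∈ N := by
    intro t ht
    let φ : B →L[ℂ] B := ContinuousLinearMap.mul ℂ B t
    have : N ≤ N.comap (φ : B →ₗ[ℂ] B) := by
      refine Submodule.topologicalClosure_minimal _ (sup_le ?_ ?_) (hN.preimage φ.continuous)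
      · refine Submodule.span_le.2 ?_
        rintro _ ⟨a, ha, γ, hγ, rfl⟩
        exact ht a ha γ hγ
      · rintro y ⟨n, hn⟩
        refine hle (Submodule.mem_sup_right ⟨n, ?_⟩)
        show t * y * 𝔩.P n = 0
        rw [mul_assoc, hn, mul_zero]
    exact fun b hb => this hb
  have appr : ∀ y : B, (∀ ε > 0, ∃ z ∈ S ⊔ L₀, ‖y - z‖ ≤ ε) → y ∈ N := by
    intro y hy
    refine Metric.mem_closure_iff.2 fun ε hε => ?_
    obtain ⟨z, hz, h⟩ := hy (ε / 2) (by linarith)
    exact ⟨z, hz, by rw [dist_eq_norm]; linarith⟩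
  have hc : ∀ c : ℂ, c • (1 : B) ∈ A₀ := fun c => SMulMemClass.smul_mem c (one_mem _)
  have hxN : x ∈ N := by
    refine left_induction N hN (hle (by simpa using hS 1 (one_mem _) 1 hL.one))
      (fun t ht => key t fun a ha γ hγ => ?_)
      (fun δ hδ => ⟨key _ fun a ha γ hγ => appr _ fun ε hε => ?_,
        key _ fun a ha γ hγ => appr _ fun ε hε => ?_⟩) hx
    · rw [← mul_assoc]; exact hle (hS _ (mul_mem ht ha) γ hγ)
    · obtain ⟨n, c, hn⟩ := hL.exc hL.one hγ ha ε hε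
      refine ⟨δ * (1 - 𝔩.P n) * a * γ + (c • 1) * δ + (δ * 𝔩.P n * a * γ - c • δ) * (1 - 𝔩.P n),
        add_mem (add_mem (hS _ (mul_mem ((hL.link δ hδ).mem n) ha) γ hγ) (hS _ (hc c) δ hδ))
          (Submodule.mem_sup_right (mul_one_sub_mem_L₀ _ _)), ?_⟩
      refine le_trans (le_of_eq ?_) hn
      rw [← CStarRing.norm_mem_unitary_mul (𝔩.P n * _ * _ - _) (hL.link δ hδ).unitary]
      congr 1
      simp only [mul_sub, sub_mul, mul_assoc, star_one, one_mul, mul_one, smul_mul_assoc,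
        mul_smul_comm]
      abel
    · obtain ⟨n, c, hn⟩ := hL.exc hδ hγ ha ε hε
      refine ⟨(1 - 𝔩.P n) * star δ * a * γ + (c • 1) * 1 +
        (𝔩.P n * star δ * a * γ - c • 1) * (1 - 𝔩.P n),
        add_mem (add_mem (hS _ (mul_mem ((hL.link δ hδ).star_mem n) ha) γ hγ)
          (hS _ (hc c) 1 hL.one))
          (Submodule.mem_sup_right (mul_one_sub_mem_L₀ _ _)), ?_⟩
      refine le_trans (le_of_eq ?_) hn
      congr 1
      simp only [mul_sub, sub_mul, mul_assoc, star_one, one_mul, mul_one, smul_mul_assoc,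
        mul_smul_comm]
      abel
  have : N ≤ 𝓔 := by
    refine Submodule.topologicalClosure_minimal _ (sup_le ?_ ?_) isClosed_𝓔
    · refine Submodule.span_le.2 ?_
      rintro _ ⟨a, ha, γ, hγ, rfl⟩
      simpa using hL.exc hL.one hγ ha
    · rintro y ⟨n, hn⟩ ε hε
      exact ⟨n, 0, by rw [mul_assoc, hn]; simpa using hε.le⟩
  exact this hxN

end

end Crest.Agent.R120
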