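import Crest.Agent.R120.Model

/-! The CAR algebra inside the hyperfinite factor, excision. -/

set_option autoImplicit false
set_option linter.unusedSectionVars false
set_option linter.unusedVariables false

namespace Crest.Agent.R120

open scoped InnerProductSpace ComplexConjugate
open Finset Filter Topology

noncomputable section

/-- restriction of a Pauli system to a subalgebra -/
def Pauli.restrict {𝔄 : Type*} [Ring 𝔄] [StarRing 𝔄] [Algebra ℂ 𝔄] [StarModule ℂ 𝔄]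
    (𝔭 : Pauli 𝔄) (S : StarSubalgebra ℂ 𝔄) (hX : ∀ a, 𝔭.X a ∈ S) (hZ : ∀ a, 𝔭.Z a ∈ S) :
    Pauli S where
  X a := ⟨𝔭.X a, hX a⟩
  Z a := ⟨𝔭.Z a, hZ a⟩
  X_zero := Subtype.ext 𝔭.X_zero
  Z_zero := Subtype.ext 𝔭.Z_zero
  X_add a b := Subtype.ext (𝔭.X_add a b)
  Z_add a b := Subtype.ext (𝔭.Z_add a b)
  star_X a := Subtype.ext (𝔭.star_X a)
  star_Z a := Subtype.ext (𝔭.star_Z a)
  ZX a b := Subtype.ext (𝔭.ZX a b)

/-- the union of the matrix algebras -/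
def Afin : StarSubalgebra ℂ B where
  carrier := {x | ∃ n, x ∈ 𝔩.M n}
  mul_mem' := by
    rintro x y ⟨n, hn⟩ ⟨m, hm⟩
    exact ⟨max n m, Pauli.mul_mem_M (Pauli.M_mono (le_max_left _ _) hn)
      (Pauli.M_mono (le_max_right _ _) hm)⟩
  add_mem' := by
    rintro x y ⟨n, hn⟩ ⟨m, hm⟩
    exact ⟨max n m, add_mem (Pauli.M_mono (le_max_left _ _) hn)
      (Pauli.M_mono (le_max_right _ _) hm)⟩
  algebraMap_mem' c := ⟨0, by
    rw [Algebra.algebraMap_eq_smul_one]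
    exact Submodule.smul_mem _ _ (Pauli.one_mem_M 0)⟩
  star_mem' := by
    rintro x ⟨n, hn⟩
    exact ⟨n, Pauli.star_mem_M hn⟩

/-- the CAR algebra -/
def A₀ : StarSubalgebra ℂ B := Afin.topologicalClosure

instance isClosed_A₀ : IsClosed (A₀ : Set B) := Afin.isClosed_topologicalClosure

instance : CStarAlgebra A₀ := StarSubalgebra.cstarAlgebra A₀

theorem mem_A₀_of_M {n : ℕ} {x : B} (h : x ∈ 𝔩.M n) : x ∈ A₀ :=
  Afin.le_topologicalClosure ⟨n, h⟩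

theorem mon_mem_A₀ (g : G) : 𝔩.mon g ∈ A₀ := by
  obtain ⟨n, hn⟩ := exists_lev g.1
  obtain ⟨m, hm⟩ := exists_lev g.2
  exact mem_A₀_of_M (Pauli.mon_mem (hn.mono (le_max_left n m)) (hm.mono (le_max_right n m)))

theorem X_mem_A₀ (a : Γ) : 𝔩.X a ∈ A₀ := by
  obtain ⟨n, hn⟩ := exists_lev a
  exact mem_A₀_of_M (Pauli.X_mem hn)

theorem Z_mem_A₀ (a : Γ) : 𝔩.Z a ∈ A₀ := by
  obtain ⟨n, hn⟩ := exists_lev a
  exact mem_A₀_of_M (Pauli.Z_mem hn)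

theorem P_mem_A₀ (n : ℕ) : 𝔩.P n ∈ A₀ := mem_A₀_of_M (Pauli.P_mem le_rfl)

theorem A₀_induction (T : Submodule ℂ B) (hT : IsClosed (T : Set B)) (h : ∀ g, 𝔩.mon g ∈ T)
    {a : B} (ha : a ∈ A₀) : a ∈ T := by
  have : (Afin : Set B) ⊆ T := by
    rintro x ⟨n, hn⟩
    refine (Submodule.span_le.2 ?_ : 𝔩.M n ≤ T) hn
    rintro _ ⟨g, -, -, rfl⟩
    exact h g
  exact closure_minimal this hT ha

theorem mem_R_of_A₀ {a : B} (ha : a ∈ A₀) : a ∈ R :=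
  A₀_induction R.toSubalgebra.toSubmodule isClosed_R
    (fun g => (mul_mem (X_mem_R g.1) (Z_mem_R g.2) : _ ∈ R)) ha

/-- the Pauli system of the CAR algebra -/
def 𝔠 : Pauli A₀ := 𝔩.restrict A₀ X_mem_A₀ Z_mem_A₀

@[simp] theorem coe_𝔠_P (n : ℕ) : ((𝔠.P n : A₀) : B) = 𝔩.P n :=
  Pauli.map_P (𝔭 := 𝔠) (𝔮 := 𝔩) A₀.subtype.toAlgHom (fun _ => rfl) n

@[simp] theorem coe_𝔠_mon (g : G) : ((𝔠.mon g : A₀) : B) = 𝔩.mon g := rfl

theorem exists_approx (a : A₀) {ε : ℝ} (hε : 0 < ε) : ∃ n, ∃ x ∈ 𝔠.M n, ‖a - x‖ ≤ ε := by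
  obtain ⟨y, ⟨n, hn⟩, hy⟩ := Metric.mem_closure_iff.1 a.2 ε hε
  have : ∃ x ∈ 𝔠.M n, (x : B) = y := by
    clear hy
    induction hn using Submodule.span_induction with
    | mem x hx =>
      obtain ⟨g, h1, h2, rfl⟩ := hx
      exact ⟨𝔠.mon g, Pauli.mon_mem h1 h2, rfl⟩
    | zero => exact ⟨0, zero_mem _, rfl⟩
    | add x y _ _ h1 h2 =>
      obtain ⟨x', h1, rfl⟩ := h1
      obtain ⟨y', h2, rfl⟩ := h2
      exact ⟨x' + y', add_mem h1 h2, rfl⟩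
    | smul c x _ h1 =>
      obtain ⟨x', h1, rfl⟩ := h1
      exact ⟨c • x', Submodule.smul_mem _ _ h1, rfl⟩
  obtain ⟨x, hx, rfl⟩ := this
  refine ⟨n, x, hx, ?_⟩
  rw [dist_eq_norm] at hy
  exact hy.le

section
variable {𝔄 : Type*} [CStarAlgebra 𝔄]

theorem norm_mul_mul_le {p q : 𝔄} (hp : ‖p‖ ≤ 1) (hq : ‖q‖ ≤ 1) (b : 𝔄) : ‖p * b * q‖ ≤ ‖b‖ := by
  calc ‖p * b * q‖ ≤ ‖p‖ * ‖b‖ * ‖q‖ := norm_mul₃_le
    _ ≤ 1 * ‖b‖ * 1 := by gcongr
    _ = _ := by ring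

theorem Pauli.norm_PP_le (𝔭 : Pauli 𝔄) (n : ℕ) (b : 𝔄) : ‖𝔭.P n * b * 𝔭.P n‖ ≤ ‖b‖ :=
  norm_mul_mul_le (𝔭.norm_P_le n) (𝔭.norm_P_le n) b

theorem Pauli.exc_mono (𝔭 : Pauli 𝔄) {n m : ℕ} (h : n ≤ m) (b : 𝔄) (c : ℂ) :
    ‖𝔭.P m * b * 𝔭.P m - c • 𝔭.P m‖ ≤ ‖𝔭.P n * b * 𝔭.P n - c • 𝔭.P n‖ := by
  refine le_trans (le_of_eq ?_) (𝔭.norm_PP_le m _)
  congr 1
  rw [mul_sub, sub_mul, mul_smul_comm, smul_mul_assoc, 𝔭.P_mul_P' h, 𝔭.P_mul_self]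
  simp only [mul_assoc]
  rw [𝔭.P_mul_P h, ← mul_assoc (𝔭.P m) (𝔭.P n), 𝔭.P_mul_P' h]

theorem norm_conj_unitary {u : 𝔄} (hu : u ∈ unitary 𝔄) (b : 𝔄) : ‖u * b * star u‖ = ‖b‖ := by
  rw [CStarRing.norm_mul_mem_unitary _ (Unitary.star_mem hu), CStarRing.norm_mem_unitary_mul _ hu]

theorem norm_exc {u : 𝔄} (hu : u ∈ unitary 𝔄) (p a : 𝔄) (c : ℂ) :
    ‖p * (star u * a * u) * p - c • p‖ =
      ‖(u * p * star u) * a * (u * p * star u) - c • (u * p * star u)‖ := by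
  rw [← norm_conj_unitary hu]
  congr 1
  simp only [mul_sub, sub_mul, mul_smul_comm, smul_mul_assoc, mul_assoc]

theorem conj_eq_one_sub {u p : 𝔄} (hu : u ∈ unitary 𝔄) (hp : p * p = p) (hs : star p = p) :
    u * p * star u = 1 - (u * (1 - p)) * star (u * (1 - p)) := by
  have : (1 - p) * (1 - p) = 1 - p := by
    simp only [sub_mul, mul_sub, one_mul, mul_one, hp]; abel
  rw [star_mul, star_sub, star_one, hs, mul_assoc u (1 - p), ← mul_assoc (1 - p), this, sub_mul,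
    one_mul, mul_sub, Unitary.mul_star_self_of_mem hu, mul_assoc]
  abel

end

/-- elements excised by the product projections -/
def 𝓔 : Submodule ℂ B where
  carrier := {b | ∀ ε > 0, ∃ n, ∃ c : ℂ, ‖𝔩.P n * b * 𝔩.P n - c • 𝔩.P n‖ ≤ ε}
  zero_mem' := fun ε hε => ⟨0, 0, by simpa using hε.le⟩
  add_mem' := by
    intro a b ha hb ε hε
    obtain ⟨n, c, hn⟩ := ha (ε / 2) (by linarith)
    obtain ⟨m, d, hm⟩ := hb (ε / 2) (by linarith)
    refine ⟨max n m, c + d, ?_⟩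
    have h1 := (𝔩.exc_mono (le_max_left n m) a c).trans hn
    have h2 := (𝔩.exc_mono (le_max_right n m) b d).trans hm
    have : 𝔩.P (max n m) * (a + b) * 𝔩.P (max n m) - (c + d) • 𝔩.P (max n m) =
      (𝔩.P (max n m) * a * 𝔩.P (max n m) - c • 𝔩.P (max n m)) +
        (𝔩.P (max n m) * b * 𝔩.P (max n m) - d • 𝔩.P (max n m)) := by
      rw [mul_add, add_mul, add_smul]; abel
    rw [this]
    exact (norm_add_le _ _).trans (by linarith)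
  smul_mem' := by
    intro t b hb ε hε
    obtain ⟨n, c, hn⟩ := hb (ε / (‖t‖ + 1)) (by positivity)
    refine ⟨n, t * c, ?_⟩
    rw [mul_smul_comm, smul_mul_assoc, mul_smul, ← smul_sub, norm_smul]
    calc _ ≤ (‖t‖ + 1) * (ε / (‖t‖ + 1)) := by gcongr; linarith
      _ = ε := by field_simp

theorem mem_𝓔 {b : B} :
    b ∈ 𝓔 ↔ ∀ ε > 0, ∃ n, ∃ c : ℂ, ‖𝔩.P n * b * 𝔩.P n - c • 𝔩.P n‖ ≤ ε := Iff.rfl

theorem isClosed_𝓔 : IsClosed (𝓔 : Set B) := by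
  refine isClosed_of_closure_subset fun b hb ε hε => ?_
  obtain ⟨a, ha, hab⟩ := Metric.mem_closure_iff.1 hb (ε / 2) (by linarith)
  obtain ⟨n, c, hn⟩ := ha (ε / 2) (by linarith)
  refine ⟨n, c, ?_⟩
  rw [dist_eq_norm] at hab
  have h1 := 𝔩.norm_PP_le n (b - a)
  have : 𝔩.P n * b * 𝔩.P n - c • 𝔩.P n =
      𝔩.P n * (b - a) * 𝔩.P n + (𝔩.P n * a * 𝔩.P n - c • 𝔩.P n) := by
    rw [mul_sub, sub_mul]; abel
  rw [this]
  exact (norm_add_le _ _).trans (by linarith)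

theorem mem_𝓔_of_A₀ {a : B} (ha : a ∈ A₀) : a ∈ 𝓔 := by
  refine A₀_induction 𝓔 isClosed_𝓔 (fun g ε hε => ?_) ha
  obtain ⟨n, hn⟩ := exists_lev g.1
  obtain ⟨m, hm⟩ := exists_lev g.2
  obtain ⟨c, hc⟩ := Pauli.P_M_P (𝔭 := 𝔩)
    (Pauli.mon_mem (hn.mono (le_max_left n m)) (hm.mono (le_max_right n m)))
  exact ⟨max n m, c, by rw [hc, sub_self, norm_zero]; exact hε.le⟩

/-- elements killed by the product projections -/
def Nul (b : B) : Prop := ∀ ε > 0, ∃ n, ‖𝔩.P n * b * 𝔩.P n‖ ≤ ε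

theorem Nul.mem_𝓔 {b : B} (h : Nul b) : b ∈ 𝓔 := fun ε hε => by
  obtain ⟨n, hn⟩ := h ε hε
  exact ⟨n, 0, by simpa using hn⟩

theorem Nul.star {b : B} (h : Nul b) : Nul (star b) := fun ε hε => by
  obtain ⟨n, hn⟩ := h ε hε
  refine ⟨n, ?_⟩
  rw [← norm_star, star_mul, star_mul, star_star, 𝔩.star_P, ← mul_assoc]
  exact hn

theorem not_nul_one : ¬ Nul 1 := by
  intro h
  obtain ⟨n, hn⟩ := h (1 / 2) (by norm_num)
  rw [mul_one, 𝔩.P_mul_self] at hn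
  have h1 : ‖𝔩.P n‖ = ‖𝔩.P n‖ * ‖𝔩.P n‖ := by
    rw [← CStarRing.norm_star_mul_self, 𝔩.star_P, 𝔩.P_mul_self]
  have h2 : ‖𝔩.P n‖ = 0 := by
    have := norm_nonneg (𝔩.P n)
    nlinarith
  have h3 := τ_P n
  rw [norm_eq_zero.1 h2, map_zero] at h3
  exact (pow_ne_zero n (by norm_num)) h3.symm

/-- links -/
structure IsLink (u : B) : Prop where
  mem_R : u ∈ R
  unitary : u ∈ unitary B
  mem : ∀ n, u * (1 - 𝔩.P n) ∈ A₀
  exc : ∀ a ∈ A₀, star u * a * u ∈ 𝓔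

theorem IsLink.conj_mem {u : B} (hu : IsLink u) (n : ℕ) : u * 𝔩.P n * star u ∈ A₀ := by
  rw [conj_eq_one_sub hu.unitary (𝔩.P_mul_self n) (𝔩.star_P n)]
  exact sub_mem (one_mem _) (mul_mem (hu.mem n) (star_mem (hu.mem n)))

theorem IsLink.star_mem {u : B} (hu : IsLink u) (n : ℕ) : (1 - 𝔩.P n) * star u ∈ A₀ := by
  have := StarMemClass.star_mem (hu.mem n)
  rwa [star_mul, star_sub, star_one, 𝔩.star_P] at this

theorem isLink_one : IsLink 1 where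
  mem_R := one_mem _
  unitary := one_mem _
  mem n := by rw [one_mul]; exact sub_mem (one_mem _) (P_mem_A₀ n)
  exc a ha := by simpa using mem_𝓔_of_A₀ ha

/-- disjointness of links -/
def Orth (u w : B) : Prop := ∀ a ∈ A₀, Nul (star u * a * w)

theorem Orth.symm {u w : B} (h : Orth u w) : Orth w u := fun a ha => by
  have := (h (star a) (star_mem ha)).star
  simpa [mul_assoc] using this

theorem not_orth_self {u : B} (hu : u ∈ unitary B) : ¬ Orth u u := fun h => by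
  have := h 1 (one_mem _)
  rw [mul_one, Unitary.star_mul_self_of_mem hu] at this
  exact not_nul_one this

theorem exists_maximal : ∃ L : Set B, (1 : B) ∈ L ∧ (∀ u ∈ L, IsLink u) ∧ L.Pairwise Orth ∧
    ∀ w, IsLink w → ¬ ∀ u ∈ L, Orth u w := by
  obtain ⟨L, hL1, hL⟩ := zorn_subset_nonempty
    {L : Set B | (∀ u ∈ L, IsLink u) ∧ L.Pairwise Orth} (by
      intro c hc hch hne
      refine ⟨⋃₀ c, ⟨?_, ?_⟩, fun s hs => Set.subset_sUnion_of_mem hs⟩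
      · rintro u ⟨s, hs, hu⟩
        exact (hc hs).1 u hu
      · exact (Set.pairwise_sUnion hch.directedOn).2 fun s hs => (hc hs).2)
    {1} ⟨by rintro u rfl; exact isLink_one, Set.pairwise_singleton _ _⟩
  refine ⟨L, hL1 rfl, hL.1.1, hL.1.2, fun w hw h => ?_⟩
  have h1 : insert w L ⊆ L := by
    refine hL.2 ⟨?_, ?_⟩ (Set.subset_insert _ _)
    · rintro u (rfl | hu)
      · exact hw
      · exact hL.1.1 u hu
    · exact hL.1.2.insert fun u hu _ => ⟨(h u hu).symm, h u hu⟩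
  exact not_orth_self hw.unitary (h w (h1 (Set.mem_insert _ _)))

end

end Crest.Agent.R120
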