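import Crest.Agent.R120.Alg

/-! Uniqueness of the irreducible representation. -/

set_option autoImplicit false
set_option linter.unusedSectionVars false
set_option linter.unusedVariables false

namespace Crest.Agent.R120

open scoped InnerProductSpace ComplexConjugate
open Finset Filter Topology

noncomputable section

variable {K : Type*} [NormedAddCommGroup K] [InnerProductSpace ℂ K] [CompleteSpace K]

section
variable {𝔄 : Type*} [CStarAlgebra 𝔄]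

theorem state_approx (π : 𝔄 →⋆ₐ[ℂ] (K →L[ℂ] K)) {Q : 𝔄} (hQ : star Q = Q) {η : K}
    (h1 : ‖η‖ = 1) (h2 : π Q η = η) (b : 𝔄) (c : ℂ) :
    ‖⟪η, π b η⟫_ℂ - c‖ ≤ ‖Q * b * Q - c • Q‖ := by
  have : ⟪η, π b η⟫_ℂ - c = ⟪η, π (Q * b * Q - c • Q) η⟫_ℂ := by
    rw [map_sub, map_smul, ContinuousLinearMap.sub_apply, ContinuousLinearMap.smul_apply, h2,
      inner_sub_right, inner_smul_right, inner_self_eq_norm_sq_to_K, h1, rep_mul, rep_mul, h2]
    have e1 : ⟪η, π Q (π b η)⟫_ℂ = ⟪η, π b η⟫_ℂ := by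
      conv_lhs => rw [← hQ]
      rw [← rep_inner, h2]
    rw [e1]
    simp
  rw [this]
  refine (norm_inner_le_norm _ _).trans ?_
  rw [h1, one_mul]
  simpa [h1] using norm_rep_le π (Q * b * Q - c • Q) η

theorem inner_star_mul_self (π : 𝔄 →⋆ₐ[ℂ] (K →L[ℂ] K)) (s : 𝔄) (η : K) :
    ⟪η, π (star s * s) η⟫_ℂ = ((‖π s η‖ ^ 2 : ℝ) : ℂ) := by
  rw [rep_mul, ← rep_inner, inner_self_eq_norm_sq_to_K]
  simp

theorem tendsto_of_no_fixed (𝔭 : Pauli 𝔄) (σ : 𝔄 →⋆ₐ[ℂ] (K →L[ℂ] K))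
    (h : ∀ η : K, (∀ n, σ (𝔭.P n) η = η) → η = 0) (x : K) :
    Tendsto (fun n => σ (𝔭.P n) x) atTop (𝓝 0) := by
  have h1 : ∀ n m, n ≤ m → ‖σ (𝔭.P n) x - σ (𝔭.P m) x‖ ^ 2 =
      ‖σ (𝔭.P n) x‖ ^ 2 - ‖σ (𝔭.P m) x‖ ^ 2 := by
    intro n m hnm
    have e1 : ⟪σ (𝔭.P n) x, σ (𝔭.P m) x⟫_ℂ = ((‖σ (𝔭.P m) x‖ ^ 2 : ℝ) : ℂ) := by
      rw [← inner_star_mul_self, rep_inner, ← rep_mul, 𝔭.star_P, 𝔭.star_P, 𝔭.P_mul_P hnm,
        𝔭.P_mul_self]
    rw [@norm_sub_sq ℂ, e1]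
    simp only [RCLike.re_to_complex, Complex.ofReal_re]
    ring
  have hanti : Antitone fun n => ‖σ (𝔭.P n) x‖ ^ 2 := fun n m hnm => by
    have := h1 n m hnm
    have := sq_nonneg ‖σ (𝔭.P n) x - σ (𝔭.P m) x‖
    simp only
    linarith
  have hbd : BddBelow (Set.range fun n => ‖σ (𝔭.P n) x‖ ^ 2) :=
    ⟨0, by rintro _ ⟨n, rfl⟩; positivity⟩
  have ht := tendsto_atTop_ciInf hanti hbd
  set l := ⨅ n, ‖σ (𝔭.P n) x‖ ^ 2
  have hc : CauchySeq fun n => σ (𝔭.P n) x := by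
    refine cauchySeq_of_le_tendsto_0' (fun n => √(‖σ (𝔭.P n) x‖ ^ 2 - l)) (fun n m hnm => ?_) ?_
    · rw [dist_eq_norm]
      apply Real.le_sqrt_of_sq_le
      rw [h1 n m hnm]
      have : l ≤ ‖σ (𝔭.P m) x‖ ^ 2 := ciInf_le hbd m
      linarith
    · have := (ht.sub_const l).sqrt
      simpa using this
  obtain ⟨y, hy⟩ := cauchySeq_tendsto_of_complete hc
  have : y = 0 := by
    refine h y fun n => ?_
    refine tendsto_nhds_unique (((σ (𝔭.P n)).continuous.tendsto y).comp hy) (hy.congr' ?_)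
    filter_upwards [eventually_ge_atTop n] with j hj
    show _ = σ (𝔭.P n) (σ (𝔭.P j) x)
    rw [← rep_mul, 𝔭.P_mul_P hj]
  rwa [this] at hy

theorem Irr.denseRange {π : 𝔄 →⋆ₐ[ℂ] (K →L[ℂ] K)} (hπ : Irr π) {η : K} (hη : η ≠ 0) :
    DenseRange fun b => π b η := by
  let e : 𝔄 →ₗ[ℂ] K :=
    { toFun := fun b => π b η
      map_add' := fun a b => by simp
      map_smul' := fun c a => by simp }
  rcases hπ (LinearMap.range e).topologicalClosure (Submodule.isClosed_topologicalClosure _)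
    (fun a v hv => by
      refine map_mem_closure (π a).continuous hv ?_
      rintro _ ⟨b, rfl⟩
      exact ⟨a * b, rep_mul π a b η⟩) with h | h
  · exfalso
    apply hη
    have : η ∈ (LinearMap.range e).topologicalClosure :=
      Submodule.le_topologicalClosure _ ⟨1, by simp [e]⟩
    rwa [h] at this
  · exact Submodule.dense_iff_topologicalClosure_eq_top.2 h

theorem exists_equiv {K' : Type*} [NormedAddCommGroup K'] [InnerProductSpace ℂ K']
    [CompleteSpace K'] {π : 𝔄 →⋆ₐ[ℂ] (K →L[ℂ] K)} {π' : 𝔄 →⋆ₐ[ℂ] (K' →L[ℂ] K')}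
    (hπ : Irr π) (hπ' : Irr π') {η : K} {η' : K'} (hη : η ≠ 0) (hη' : η' ≠ 0)
    (h : ∀ b, ⟪η, π b η⟫_ℂ = ⟪η', π' b η'⟫_ℂ) :
    ∃ U : K ≃ₗᵢ[ℂ] K', ∀ a v, U (π a v) = π' a (U v) := by
  let e : 𝔄 →ₗ[ℂ] K :=
    { toFun := fun b => π b η
      map_add' := fun a b => by simp
      map_smul' := fun c a => by simp }
  let e' : 𝔄 →ₗ[ℂ] K' :=
    { toFun := fun b => π' b η'
      map_add' := fun a b => by simp
      map_smul' := fun c a => by simp }
  have hd : DenseRange e := hπ.denseRange hη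
  have hd' : DenseRange e' := hπ'.denseRange hη'
  have hn : ∀ b, ‖e' (LinearEquiv.refl ℂ 𝔄 b)‖ = ‖e b‖ := by
    intro b
    have := h (star b * b)
    rw [inner_star_mul_self, inner_star_mul_self, Complex.ofReal_inj] at this
    exact ((pow_left_inj₀ (norm_nonneg _) (norm_nonneg _) two_ne_zero).1 this).symm
  let U := (LinearEquiv.refl ℂ 𝔄).extendOfIsometry e e' hd hd' hn
  have hU : ∀ b, U (π b η) = π' b η' := fun b =>
    LinearEquiv.extendOfIsometry_eq (LinearEquiv.refl ℂ 𝔄) e e' hd hd' hn b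
  refine ⟨U, fun a v => ?_⟩
  refine hd.induction_on v (isClosed_eq (by fun_prop) (by fun_prop)) fun b => ?_
  show U (π a (π b η)) = π' a (U (π b η))
  rw [← rep_mul, hU, hU, rep_mul]

theorem exists_unital (π : 𝔄 →⋆ₙₐ[ℂ] (K →L[ℂ] K)) (h0 : π ≠ 0)
    (h : ∀ V : Submodule ℂ K, IsClosed (V : Set K) → (∀ a, ∀ v ∈ V, π a v ∈ V) → V = ⊥ ∨ V = ⊤) :
    ∃ π' : 𝔄 →⋆ₐ[ℂ] (K →L[ℂ] K), (∀ a, π' a = π a) ∧ Irr π' ∧ ∃ ξ : K, ξ ≠ 0 := by
  have h1 : π 1 = 1 := by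
    rcases h (LinearMap.ker ((1 - π 1 : K →L[ℂ] K) : K →ₗ[ℂ] K))
      (ContinuousLinearMap.isClosed_ker _) (fun a v hv => by
        show π a v - π 1 (π a v) = 0
        rw [← ContinuousLinearMap.mul_apply, ← map_mul, one_mul, sub_self]) with h2 | h2
    · exfalso
      apply h0
      ext a v
      have : π a v ∈ LinearMap.ker ((1 - π 1 : K →L[ℂ] K) : K →ₗ[ℂ] K) := by
        show π a v - π 1 (π a v) = 0
        rw [← ContinuousLinearMap.mul_apply, ← map_mul, one_mul, sub_self]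
      rw [h2] at this
      simpa using this
    · ext v
      have : v ∈ LinearMap.ker ((1 - π 1 : K →L[ℂ] K) : K →ₗ[ℂ] K) := by rw [h2]; trivial
      exact (sub_eq_zero.1 this).symm
  refine ⟨{ toFun := π
            map_one' := h1
            map_mul' := map_mul π
            map_zero' := map_zero π
            map_add' := map_add π
            commutes' := fun c => by
              rw [Algebra.algebraMap_eq_smul_one, Algebra.algebraMap_eq_smul_one, map_smul, h1]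
            map_star' := map_star π }, fun _ => rfl, h, ?_⟩
  by_contra hc
  push Not at hc
  apply h0
  ext a v
  exact hc _ |>.trans (hc _).symm

end

variable {L : Set B}

/-- the inclusion of the CAR algebra -/
def ι (L : Set B) : A₀ →⋆ₐ[ℂ] Alg L := StarSubalgebra.inclusion A₀_le

@[simp] theorem coe_ι (a : A₀) : ((ι L a : Alg L) : B) = a := rfl

theorem Fam.exists_vec (hL : Fam L) {π : Alg L →⋆ₐ[ℂ] (K →L[ℂ] K)} (hπ : Irr π) {ξ : K}
    (hξ : ξ ≠ 0) : ∃ η : K, η ≠ 0 ∧ ∀ n, π (ι L (𝔠.P n)) η = η := by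
  by_contra hc
  let σ : A₀ →⋆ₐ[ℂ] (K →L[ℂ] K) := π.comp (ι L)
  have hσπ : ∀ a, σ a = π (ι L a) := fun _ => rfl
  have ht : ∀ x, Tendsto (fun n => π (ι L (𝔠.P n)) x) atTop (𝓝 0) :=
    tendsto_of_no_fixed 𝔠 σ fun η hη => by
      by_contra h0
      exact hc ⟨η, h0, hη⟩
  have hσ : Irr σ := by
    intro V hV hinv
    refine hπ V hV fun b => ?_
    let T : Subalgebra ℂ (Alg L) :=
      { carrier := {t | ∀ v ∈ V, π t v ∈ V}
        mul_mem' := fun hs ht v hv => by rw [rep_mul]; exact hs _ (ht v hv)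
        add_mem' := fun hs ht v hv => by
          rw [map_add]; exact add_mem (hs v hv) (ht v hv)
        algebraMap_mem' := fun c v hv => by
          rw [Algebra.algebraMap_eq_smul_one, map_smul, map_one]; exact V.smul_mem c hv }
    have hT : IsClosed (T : Set (Alg L)) := by
      have : (T : Set (Alg L)) = ⋂ v ∈ V, (fun t => π t v) ⁻¹' (V : Set K) := by
        ext t; simp only [Set.mem_iInter]; rfl
      rw [this]
      have hπc : Continuous π := AddMonoidHomClass.continuous_of_bound π 1 fun a => by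
        rw [one_mul]; exact NonUnitalStarAlgHom.norm_apply_le π a
      exact isClosed_biInter fun b _ => hV.preimage (by fun_prop)
    have hT' : IsClosed ((T.map (Alg L).subtype.toAlgHom : Subalgebra ℂ B) : Set B) :=
      (isClosed_Alg L).isClosedEmbedding_subtypeVal.isClosedMap _ hT
    suffices h : (b : B) ∈ T.map (Alg L).subtype.toAlgHom by
      obtain ⟨t, ht', hb⟩ := h
      have : t = b := Subtype.ext hb
      exact this ▸ ht'
    refine gen_induction _ hT' (fun a ha => ⟨ι L ⟨a, ha⟩, hinv ⟨a, ha⟩, rfl⟩)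
      (fun u hu => ⟨⟨⟨u, mem_Alg hu⟩, fun v hv => ?_, rfl⟩,
        ⟨star ⟨u, mem_Alg hu⟩, fun v hv => ?_, rfl⟩⟩) b.2
    · set u' : Alg L := ⟨u, mem_Alg hu⟩
      have h1 := (tendsto_const_nhds (x := π u' v)).sub
        (((π u').continuous.tendsto 0).comp (ht v))
      rw [map_zero, sub_zero] at h1
      refine hV.mem_of_tendsto h1 (Eventually.of_forall fun n => ?_)
      have h2 := hinv ⟨_, (hL.link u hu).mem n⟩ v hv
      have h3 : ι L ⟨_, (hL.link u hu).mem n⟩ = u' - u' * ι L (𝔠.P n) := by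
        apply Subtype.ext
        simp [u', mul_sub]
      rwa [hσπ, h3, map_sub, ContinuousLinearMap.sub_apply, rep_mul] at h2
    · set u' : Alg L := ⟨u, mem_Alg hu⟩
      have h1 := (tendsto_const_nhds (x := π (star u') v)).sub (ht (π (star u') v))
      rw [sub_zero] at h1
      refine hV.mem_of_tendsto h1 (Eventually.of_forall fun n => ?_)
      have h2 := hinv ⟨_, (hL.link u hu).star_mem n⟩ v hv
      have h3 : ι L ⟨_, (hL.link u hu).star_mem n⟩ = star u' - ι L (𝔠.P n) * star u' := by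
        apply Subtype.ext
        simp [u', sub_mul]
      rwa [hσπ, h3, map_sub, ContinuousLinearMap.sub_apply, rep_mul] at h2
  obtain ⟨w, hw, η, hη1, hη⟩ := exists_link hσ hξ
  refine hL.max w hw fun u hu a ha ε hε => ?_
  set u' : Alg L := ⟨u, mem_Alg hu⟩
  set a' : A₀ := ⟨a, ha⟩
  obtain ⟨N, hN⟩ := Metric.tendsto_atTop.1 (ht (π (star u' * ι L a') η)) (ε / 2) (by linarith)
  have hN' := hN N le_rfl
  rw [dist_zero_right, ← rep_mul] at hN'
  set s : Alg L := ι L (𝔠.P N) * (star u' * ι L a')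
  let y : A₀ := star a' * ⟨_, (hL.link u hu).conj_mem N⟩ * a'
  have hsy : star s * s = ι L y := by
    apply Subtype.ext
    simp [s, y, u', mul_assoc, 𝔩.star_P, ← mul_assoc (𝔩.P N) (𝔩.P N), 𝔩.P_mul_self]
  obtain ⟨n, c, hn⟩ := hw.exc y y.2 (ε ^ 2 / 4) (by positivity)
  have hn' := (𝔩.exc_mono (le_max_left n N) _ c).trans hn
  set k := Max.max n N
  have h1 : ‖c‖ ≤ ε ^ 2 / 2 := by
    let Q : A₀ := ⟨_, hw.conj_mem k⟩
    have hQ : star Q = Q := by
      apply Subtype.ext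
      simp [Q, 𝔩.star_P, mul_assoc]
    have h2 := state_approx σ hQ hη1 (hη k Q rfl) y c
    rw [norm_exc hw.unitary] at hn'
    have h3 : ‖⟪η, σ y η⟫_ℂ - c‖ ≤ ε ^ 2 / 4 := h2.trans hn'
    have h4 : ‖⟪η, σ y η⟫_ℂ‖ ≤ ε ^ 2 / 4 := by
      rw [hσπ, ← hsy, inner_star_mul_self, Complex.norm_real, Real.norm_eq_abs,
        abs_of_nonneg (by positivity)]
      have := norm_nonneg (π s η)
      nlinarith
    have := norm_sub_le (⟪η, σ y η⟫_ℂ) (⟪η, σ y η⟫_ℂ - c)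
    rw [sub_sub_cancel] at this
    linarith
  have h2 : ‖𝔩.P k * (star w * y * w) * 𝔩.P k‖ ≤ ε ^ 2 := by
    have h3 := norm_add_le (𝔩.P k * (star w * y * w) * 𝔩.P k - c • 𝔩.P k) (c • 𝔩.P k)
    rw [sub_add_cancel, norm_smul] at h3
    have h4 : ‖c‖ * ‖𝔩.P k‖ ≤ ‖c‖ := mul_le_of_le_one_right (norm_nonneg _) (𝔩.norm_P_le k)
    nlinarith
  refine ⟨k, ?_⟩
  have h3 : ‖𝔩.P N * (star u * a * w) * 𝔩.P k‖ * ‖𝔩.P N * (star u * a * w) * 𝔩.P k‖ ≤ ε ^ 2 := by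
    rw [← CStarRing.norm_star_mul_self]
    refine le_trans (le_of_eq ?_) h2
    congr 1
    simp [y, a', mul_assoc, 𝔩.star_P, ← mul_assoc (𝔩.P N) (𝔩.P N), 𝔩.P_mul_self]
  have h4 : ‖𝔩.P N * (star u * a * w) * 𝔩.P k‖ ≤ ε := by
    rw [← sq] at h3
    exact (pow_le_pow_iff_left₀ (norm_nonneg _) hε.le two_ne_zero).1 h3
  refine le_trans ?_ h4
  conv_lhs => enter [1, 1, 1]; rw [← 𝔩.P_mul_P' (le_max_right n N : N ≤ k)]
  rw [mul_assoc (𝔩.P k), mul_assoc (𝔩.P k)]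
  exact (norm_mul_le _ _).trans (mul_le_of_le_one_left (norm_nonneg _) (𝔩.norm_P_le k))

theorem Fam.exists_unit_vec (hL : Fam L) {π : Alg L →⋆ₐ[ℂ] (K →L[ℂ] K)} (hπ : Irr π) {ξ : K}
    (hξ : ξ ≠ 0) : ∃ η : K, ‖η‖ = 1 ∧ ∀ (b : Alg L) n (c : ℂ),
      ‖⟪η, π b η⟫_ℂ - c‖ ≤ ‖𝔩.P n * b * 𝔩.P n - c • 𝔩.P n‖ := by
  obtain ⟨η, h0, hη⟩ := hL.exists_vec hπ hξ
  refine ⟨((‖η‖ : ℂ))⁻¹ • η, norm_smul_inv_norm h0, fun b n c => ?_⟩
  refine (state_approx π (Q := ι L (𝔠.P n)) (by rw [← map_star, 𝔠.star_P])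
    (norm_smul_inv_norm h0) (by rw [map_smul, hη]) b c).trans (le_of_eq ?_)
  rw [← coe_𝔠_P]
  rfl

theorem Fam.equiv (hL : Fam L) {K' : Type*} [NormedAddCommGroup K'] [InnerProductSpace ℂ K']
    [CompleteSpace K'] {π : Alg L →⋆ₐ[ℂ] (K →L[ℂ] K)} {π' : Alg L →⋆ₐ[ℂ] (K' →L[ℂ] K')}
    (hπ : Irr π) (hπ' : Irr π') {ξ : K} {ξ' : K'} (hξ : ξ ≠ 0) (hξ' : ξ' ≠ 0) :
    ∃ U : K ≃ₗᵢ[ℂ] K', ∀ a v, U (π a v) = π' a (U v) := by
  obtain ⟨η, h1, hη⟩ := hL.exists_unit_vec hπ hξ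
  obtain ⟨η', h1', hη'⟩ := hL.exists_unit_vec hπ' hξ'
  refine exists_equiv hπ hπ' (η := η) (η' := η') (by rintro rfl; simp at h1)
    (by rintro rfl; simp at h1') fun b => ?_
  refine eq_of_norm_sub_le_zero (le_of_forall_pos_le_add fun ε hε => ?_)
  obtain ⟨n, c, hn⟩ := hL.mem_𝓔 b.2 (ε / 2) (by linarith)
  have h2 := (hη b n c).trans hn
  have h3 := (hη' b n c).trans hn
  have := norm_sub_le (⟪η, π b η⟫_ℂ - c) (⟪η', π' b η'⟫_ℂ - c)
  rw [sub_sub_sub_cancel_right] at this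
  linarith

end

end Crest.Agent.R120
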