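import Crest.Agent.R120.Car

/-! Every irreducible representation of the CAR algebra is carried by a link. -/

set_option autoImplicit false
set_option linter.unusedSectionVars false
set_option linter.unusedVariables false

namespace Crest.Agent.R120

open scoped InnerProductSpace ComplexConjugate
open Finset Filter Topology

noncomputable section

variable {K : Type*} [NormedAddCommGroup K] [InnerProductSpace ℂ K] [CompleteSpace K]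

section
variable {𝔄 : Type*} [CStarAlgebra 𝔄] {𝔭 : Pauli 𝔄} {σ : 𝔄 →⋆ₐ[ℂ] (K →L[ℂ] K)}

theorem exists_next (hσ : Irr σ)
    (hd : ∀ (a : 𝔄) (ε : ℝ), 0 < ε → ∃ n, ∃ x ∈ 𝔭.M n, ‖a - x‖ ≤ ε) (g : ℕ → 𝔄) (n : ℕ)
    {v : 𝔄} {m : ℕ} {ζ : K} (hv : v ∈ unitary 𝔄) (h1 : ‖ζ‖ = 1) (h2 : σ (𝔭.P m) ζ = ζ) :
    ∃ (v' : 𝔄) (m' : ℕ) (ζ' : K), (v' ∈ unitary 𝔄 ∧ ‖ζ'‖ = 1 ∧ σ (𝔭.P m') ζ' = ζ') ∧
      m < m' ∧ v' * (1 - 𝔭.P m) = v * (1 - 𝔭.P m) ∧ ‖σ v' ζ' - σ v ζ‖ ≤ (1 / 2) ^ n ∧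
      ∀ j ≤ n, ∃ c : ℂ, ‖𝔭.P m' * (star v' * g j * v') * 𝔭.P m' - c • 𝔭.P m'‖ ≤ (1 / 2) ^ n := by
  have hε : (0 : ℝ) < (1 / 2) ^ n := by positivity
  choose l x hx hxl using fun j => hd (star v * g j * v) _ hε
  obtain ⟨z, hz, m', hm', ζ', h1', h2', h3, h4, h5⟩ := exists_step (𝔭 := 𝔭) hσ
    (k := max (m + 1) ((range (n + 1)).sup l)) (le_trans (Nat.le_succ m) (le_max_left _ _))
    h1 h2 hε
  refine ⟨v * z, m', ζ', ⟨mul_mem hv hz, h1', h2'⟩, lt_of_lt_of_le (Nat.lt_succ_self m)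
    ((le_max_left _ _).trans hm'), by rw [mul_assoc, h3], ?_, fun j hj => ?_⟩
  · rw [rep_mul, ← map_sub, rep_norm_unitary σ hv]
    exact h4.le
  · have hl : l j ≤ max (m + 1) ((range (n + 1)).sup l) :=
      le_trans (Finset.le_sup (f := l) (mem_range.2 (Nat.lt_succ_of_le hj))) (le_max_right _ _)
    obtain ⟨c, hc⟩ := h5 (x j) (Pauli.M_mono hl (hx j))
    refine ⟨c, ?_⟩
    have : 𝔭.P m' * (star (v * z) * g j * (v * z)) * 𝔭.P m' - c • 𝔭.P m' =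
        𝔭.P m' * (star z * (star v * g j * v - x j) * z) * 𝔭.P m' := by
      rw [← hc]
      simp only [star_mul, mul_sub, sub_mul, mul_assoc]
    rw [this]
    refine (𝔭.norm_PP_le _ _).trans ((norm_mul_mul_le ?_ (norm_unitary_le hz) _).trans (hxl j))
    exact norm_unitary_le (Unitary.star_mem hz)

theorem exists_seq (hσ : Irr σ) {ξ : K} (hξ : ξ ≠ 0)
    (hd : ∀ (a : 𝔄) (ε : ℝ), 0 < ε → ∃ n, ∃ x ∈ 𝔭.M n, ‖a - x‖ ≤ ε) (g : ℕ → 𝔄) :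
    ∃ (v : ℕ → 𝔄) (m : ℕ → ℕ) (ζ : ℕ → K),
      (∀ n, v n ∈ unitary 𝔄 ∧ ‖ζ n‖ = 1 ∧ σ (𝔭.P (m n)) (ζ n) = ζ n) ∧ ∀ n,
      m n < m (n + 1) ∧ v (n + 1) * (1 - 𝔭.P (m n)) = v n * (1 - 𝔭.P (m n)) ∧
      ‖σ (v (n + 1)) (ζ (n + 1)) - σ (v n) (ζ n)‖ ≤ (1 / 2) ^ n ∧
      ∀ j ≤ n, ∃ c : ℂ, ‖𝔭.P (m (n + 1)) * (star (v (n + 1)) * g j * v (n + 1)) *
        𝔭.P (m (n + 1)) - c • 𝔭.P (m (n + 1))‖ ≤ (1 / 2) ^ n := by
  let D := {d : 𝔄 × ℕ × K // d.1 ∈ unitary 𝔄 ∧ ‖d.2.2‖ = 1 ∧ σ (𝔭.P d.2.1) d.2.2 = d.2.2}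
  have : ∀ (n : ℕ) (d : D), ∃ d' : D, d.1.2.1 < d'.1.2.1 ∧
      d'.1.1 * (1 - 𝔭.P d.1.2.1) = d.1.1 * (1 - 𝔭.P d.1.2.1) ∧
      ‖σ d'.1.1 d'.1.2.2 - σ d.1.1 d.1.2.2‖ ≤ (1 / 2) ^ n ∧
      ∀ j ≤ n, ∃ c : ℂ, ‖𝔭.P d'.1.2.1 * (star d'.1.1 * g j * d'.1.1) * 𝔭.P d'.1.2.1 -
        c • 𝔭.P d'.1.2.1‖ ≤ (1 / 2) ^ n := by
    rintro n ⟨⟨v, m, ζ⟩, hv, h1, h2⟩
    obtain ⟨v', m', ζ', h, h'⟩ := exists_next hσ hd g n hv h1 h2
    exact ⟨⟨⟨v', m', ζ'⟩, h⟩, h'⟩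
  choose f hf using this
  obtain ⟨ζ₀, h1, h2⟩ := exists_fixed (𝔭 := 𝔭) (σ := σ) hξ 0
  let d : ℕ → D := fun n => Nat.rec ⟨⟨1, 0, ζ₀⟩, one_mem _, h1, h2⟩ f n
  exact ⟨fun n => (d n).1.1, fun n => (d n).1.2.1, fun n => (d n).1.2.2, fun n => (d n).2,
    fun n => hf n (d n)⟩

theorem Pauli.one_sub_mul {n m : ℕ} (h : n ≤ m) :
    (1 - 𝔭.P m) * (1 - 𝔭.P n) = 1 - 𝔭.P n := by
  rw [sub_mul, one_mul, mul_sub, mul_one, 𝔭.P_mul_P' h, sub_self, sub_zero]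

theorem Pauli.eq_of_le {u v : 𝔄} {n m : ℕ} (h : n ≤ m)
    (huv : u * (1 - 𝔭.P m) = v * (1 - 𝔭.P m)) : u * (1 - 𝔭.P n) = v * (1 - 𝔭.P n) := by
  rw [← Pauli.one_sub_mul (𝔭 := 𝔭) h, ← mul_assoc, huv, mul_assoc]

theorem Pauli.conj_eq {u v : 𝔄} (hu : u ∈ unitary 𝔄) (hv : v ∈ unitary 𝔄) {n : ℕ}
    (huv : u * (1 - 𝔭.P n) = v * (1 - 𝔭.P n)) :
    u * 𝔭.P n * star u = v * 𝔭.P n * star v := by
  rw [conj_eq_one_sub hu (𝔭.P_mul_self n) (𝔭.star_P n),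
    conj_eq_one_sub hv (𝔭.P_mul_self n) (𝔭.star_P n), huv]

end

theorem coe_unitary {S : StarSubalgebra ℂ B} {u : S} (hu : u ∈ unitary S) :
    (u : B) ∈ unitary B := by
  rw [Unitary.mem_iff] at hu ⊢
  exact ⟨congrArg Subtype.val hu.1, congrArg Subtype.val hu.2⟩

theorem exists_link {σ : A₀ →⋆ₐ[ℂ] (K →L[ℂ] K)} (hσ : Irr σ) {ξ : K} (hξ : ξ ≠ 0) :
    ∃ w, IsLink w ∧ ∃ η : K, ‖η‖ = 1 ∧
      ∀ n (Q : A₀), (Q : B) = w * 𝔩.P n * star w → σ Q η = η := by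
  obtain ⟨g, hg⟩ := exists_surjective_nat G
  obtain ⟨v, m, ζ, h0, hs⟩ := exists_seq (𝔭 := 𝔠) hσ hξ (fun a ε hε => exists_approx a hε)
    (fun j => 𝔠.mon (g j))
  have hm : StrictMono m := strictMono_nat_of_lt_succ fun n => (hs n).1
  have hv : ∀ n j, n ≤ j → v j * (1 - 𝔠.P (m n)) = v n * (1 - 𝔠.P (m n)) := by
    intro n j hj
    induction j, hj using Nat.le_induction with
    | base => rfl
    | succ j hj ih => rw [← ih]; exact Pauli.eq_of_le (hm.monotone hj) (hs j).2.1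
  have hv' : ∀ n j, n ≤ j → (v j : B) * (1 - 𝔩.P (m n)) = v n * (1 - 𝔩.P (m n)) := by
    intro n j hj
    simpa using congrArg Subtype.val (hv n j hj)
  have hvu : ∀ n, (v n : B) ∈ unitary B := fun n => coe_unitary (h0 n).1
  obtain ⟨w, hwR, hwu, hw⟩ := exists_limit (fun n => (v n : B)) hvu
    (fun n => mem_R_of_A₀ (v n).2) (fun n j hj => Pauli.eq_of_le (hm.id_le n) (hv' n j hj))
  have hw' : ∀ n, w * (1 - 𝔩.P (m n)) = v n * (1 - 𝔩.P (m n)) := fun n =>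
    (hw (m n)).trans (hv' n (m n) (hm.id_le n))
  have hc : CauchySeq fun n => σ (v n) (ζ n) := by
    refine cauchySeq_of_le_geometric (1 / 2) 1 (by norm_num) fun n => ?_
    rw [dist_comm, dist_eq_norm, one_mul]
    exact (hs n).2.2.1
  obtain ⟨η, hη⟩ := cauchySeq_tendsto_of_complete hc
  refine ⟨w, ⟨hwR, hwu, fun n => ?_, fun a ha => ?_⟩, η, ?_, fun n Q hQ => ?_⟩
  · rw [hw]
    exact mul_mem (v n).2 (sub_mem (one_mem _) (P_mem_A₀ n))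
  · let φ : B →L[ℂ] B := ContinuousLinearMap.mulLeftRight ℂ B (star w) w
    refine A₀_induction (𝓔.comap (φ : B →ₗ[ℂ] B)) (isClosed_𝓔.preimage φ.continuous)
      (fun g' => ?_) ha
    obtain ⟨j, rfl⟩ := hg g'
    show star w * 𝔩.mon (g j) * w ∈ 𝓔
    intro ε hε
    obtain ⟨N, hN⟩ := exists_pow_lt_of_lt_one hε (by norm_num : (1 / 2 : ℝ) < 1)
    obtain ⟨c, hc⟩ := (hs (max j N)).2.2.2 j (le_max_left _ _)
    refine ⟨m (max j N + 1), c, ?_⟩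
    rw [norm_exc hwu, Pauli.conj_eq hwu (hvu _) (hw' _), ← norm_exc (hvu _)]
    refine le_trans (le_of_eq ?_) (hc.trans (le_trans ?_ hN.le))
    · rw [← coe_𝔠_P]; rfl
    · exact pow_le_pow_of_le_one (by norm_num) (by norm_num) (le_max_right _ _)
  · refine tendsto_nhds_unique hη.norm ?_
    simp [rep_norm_unitary σ (h0 _).1, (h0 _).2.1]
  · refine tendsto_nhds_unique (((σ Q).continuous.tendsto η).comp hη) (hη.congr' ?_)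
    filter_upwards [eventually_ge_atTop n] with j hj
    have hnj : n ≤ m j := hj.trans (hm.id_le j)
    have h1 : Q = v j * 𝔠.P n * star (v j) := by
      apply Subtype.ext
      rw [hQ, Pauli.conj_eq hwu (hvu j) (Pauli.eq_of_le hnj (hw' j)), ← coe_𝔠_P]
      rfl
    show _ = σ Q (σ (v j) (ζ j))
    rw [h1, ← rep_mul, mul_assoc, Unitary.star_mul_self_of_mem (h0 j).1, mul_one, rep_mul,
      ← (h0 j).2.2, ← rep_mul σ (𝔠.P n), 𝔠.P_mul_P hnj]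

end

end Crest.Agent.R120
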