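import Crest.Agent.R120.Step

/-! The tracial representation of the CAR algebra. -/

set_option autoImplicit false
set_option linter.unusedSectionVars false
set_option linter.unusedVariables false

namespace Crest.Agent.R120

open scoped InnerProductSpace ComplexConjugate
open Finset Filter Topology

noncomputable section

section basic
variable {ι H H' : Type*} [NormedAddCommGroup H] [InnerProductSpace ℂ H]
  [NormedAddCommGroup H'] [InnerProductSpace ℂ H']

theorem ext_basis (b : HilbertBasis ι ℂ H) {F : Type*} [NormedAddCommGroup F] [NormedSpace ℂ F]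
    {A B : H →L[ℂ] F} (h : ∀ i, A (b i) = B (b i)) : A = B := by
  refine ContinuousLinearMap.ext_on (s := Set.range b) ?_ ?_
  · rw [Submodule.dense_iff_topologicalClosure_eq_top]
    exact b.dense_span
  · rintro _ ⟨i, rfl⟩
    exact h i

theorem vec_ext_basis (b : HilbertBasis ι ℂ H) {x y : H}
    (h : ∀ i, ⟪b i, x⟫_ℂ = ⟪b i, y⟫_ℂ) : x = y := by
  apply b.repr.injective
  ext i
  rw [b.repr_apply_apply, b.repr_apply_apply, h]

theorem norm_sq_sum_orthonormal {v : ι → H} (hv : Orthonormal ℂ v) (s : Finset ι) (c : ι → ℂ) :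
    ‖∑ i ∈ s, c i • v i‖ ^ 2 = ∑ i ∈ s, ‖c i‖ ^ 2 := by
  have := hv.inner_sum c c s
  rw [inner_self_eq_norm_sq_to_K] at this
  simp only [RCLike.conj_mul] at this
  exact_mod_cast this

theorem exists_synth [CompleteSpace H'] (b : HilbertBasis ι ℂ H) {v : ι → H'}
    (hv : Orthonormal ℂ v) : ∃ T : H →L[ℂ] H', ∀ i, T (b i) = v i := by
  let e : (ι →₀ ℂ) →ₗ[ℂ] H := Finsupp.linearCombination ℂ b
  let f : (ι →₀ ℂ) →ₗ[ℂ] H' := Finsupp.linearCombination ℂ v
  have hd : DenseRange e := by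
    have : Set.range e = (Submodule.span ℂ (Set.range b) : Set H) := by
      rw [← Finsupp.range_linearCombination]; rfl
    rw [DenseRange, this, Submodule.dense_iff_topologicalClosure_eq_top]
    exact b.dense_span
  have hn : ∀ x, ‖f x‖ ≤ 1 * ‖e x‖ := by
    intro x
    have h1 := norm_sq_sum_orthonormal hv x.support x
    have h2 := norm_sq_sum_orthonormal b.orthonormal x.support x
    have e1 : f x = ∑ i ∈ x.support, x i • v i := by
      simp [f, Finsupp.linearCombination_apply, Finsupp.sum]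
    have e2 : e x = ∑ i ∈ x.support, x i • b i := by
      simp [e, Finsupp.linearCombination_apply, Finsupp.sum]
    rw [e1, e2, one_mul]
    rw [← h2] at h1
    exact ((pow_left_inj₀ (norm_nonneg _) (norm_nonneg _) two_ne_zero).1 h1).le
  refine ⟨f.extendOfNorm e, fun i => ?_⟩
  have := LinearMap.extendOfNorm_eq hd ⟨1, hn⟩ (Finsupp.single i 1)
  simpa [e, f] using this

end basic

/-- index group -/
abbrev G : Type := Γ × Γ
/-- the Hilbert space -/
abbrev H : Type := lp (fun _ : G => ℂ) 2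
/-- bounded operators -/
abbrev B : Type := H →L[ℂ] H
/-- the standard basis -/
def δ : HilbertBasis G ℂ H := default

theorem G_add_self (u : G) : u + u = 0 := Prod.ext (Γ_add_self _) (Γ_add_self _)

theorem exists_mk (u : G) (φ : G → ZMod 2) :
    ∃ T : B, ∀ g, T (δ g) = ch (φ g) • δ (g + u) := by
  refine exists_synth δ ⟨fun g => ?_, fun g g' h => ?_⟩
  · rw [norm_smul, norm_ch, δ.orthonormal.1, one_mul]
  · show ⟪ch (φ g) • δ (g + u), ch (φ g') • δ (g' + u)⟫_ℂ = 0
    rw [inner_smul_left, inner_smul_right, δ.orthonormal.2 (fun h' => h (add_right_cancel h'))]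
    simp

/-- signed translations -/
def mk (u : G) (φ : G → ZMod 2) : B := (exists_mk u φ).choose

theorem mk_apply (u : G) (φ : G → ZMod 2) (g : G) : mk u φ (δ g) = ch (φ g) • δ (g + u) :=
  (exists_mk u φ).choose_spec g

theorem mk_mul (u u' : G) (φ φ' : G → ZMod 2) :
    mk u φ * mk u' φ' = mk (u + u') (fun g => φ' g + φ (g + u')) := by
  refine ext_basis δ fun g => ?_
  rw [ContinuousLinearMap.mul_apply, mk_apply, map_smul, mk_apply, mk_apply, smul_smul, ch_add,
    add_assoc, add_comm u' u]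

theorem mk_zero : mk 0 0 = 1 := by
  refine ext_basis δ fun g => ?_
  rw [mk_apply]; simp

theorem mk_smul (u : G) (φ : G → ZMod 2) (c : ZMod 2) :
    ch c • mk u φ = mk u (fun g => c + φ g) := by
  refine ext_basis δ fun g => ?_
  rw [ContinuousLinearMap.smul_apply, mk_apply, mk_apply, smul_smul, ch_add]

theorem star_mk (u : G) (φ : G → ZMod 2) : star (mk u φ) = mk u (fun g => φ (g + u)) := by
  classical
  refine ext_basis δ fun g => vec_ext_basis δ fun g' => ?_
  rw [ContinuousLinearMap.star_eq_adjoint, ContinuousLinearMap.adjoint_inner_right, mk_apply,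
    mk_apply, inner_smul_left, inner_smul_right, conj_ch]
  by_cases h : g' = g + u
  · subst h
    rw [add_assoc, G_add_self, add_zero, inner_self_eq_norm_sq_to_K, inner_self_eq_norm_sq_to_K,
      δ.orthonormal.1, δ.orthonormal.1]
  · have h' : g' + u ≠ g := by
      rintro rfl
      exact h (by rw [add_assoc, G_add_self, add_zero])
    rw [δ.orthonormal.2 h, δ.orthonormal.2 h']
    simp

theorem zmod_add_self (t : ZMod 2) : t + t = 0 := by revert t; decide

/-- the left Pauli system -/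
def 𝔩 : Pauli B where
  X a := mk (a, 0) 0
  Z b := mk (0, b) (fun g => pr g.1 b)
  X_zero := mk_zero
  Z_zero := by rw [← mk_zero]; congr 1; funext g; simp
  X_add a b := by rw [mk_mul]; congr 1
  Z_add a b := by
    rw [mk_mul]; congr 1
    funext g; simp [pr_add_right, add_comm]
  star_X a := by rw [star_mk]; rfl
  star_Z a := by rw [star_mk]; congr 1; funext g; simp
  ZX a b := by
    rw [mk_mul, mk_mul, mk_smul, add_comm]; congr 1
    funext g; simp [pr_add_left, add_comm]

/-- right multiplications -/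
def ρX (a : Γ) : B := mk (a, 0) (fun g => pr a g.2)
/-- right multiplications -/
def ρZ (b : Γ) : B := mk (0, b) 0

theorem star_ρX (a : Γ) : star (ρX a) = ρX a := by
  rw [ρX, star_mk]; congr 1; funext g; simp
theorem star_ρZ (a : Γ) : star (ρZ a) = ρZ a := by
  rw [ρZ, star_mk]; rfl

/-- the hyperfinite factor -/
def R : StarSubalgebra ℂ B := StarSubalgebra.centralizer ℂ (Set.range ρX ∪ Set.range ρZ)

theorem mem_R {T : B} : T ∈ R ↔ (∀ a, ρX a * T = T * ρX a) ∧ ∀ b, ρZ b * T = T * ρZ b := by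
  rw [R, StarSubalgebra.mem_centralizer_iff]
  constructor
  · intro h
    exact ⟨fun a => (h _ (Or.inl ⟨a, rfl⟩)).1, fun a => (h _ (Or.inr ⟨a, rfl⟩)).1⟩
  · rintro ⟨h1, h2⟩ g (⟨a, rfl⟩ | ⟨a, rfl⟩)
    · rw [star_ρX]; exact ⟨h1 a, h1 a⟩
    · rw [star_ρZ]; exact ⟨h2 a, h2 a⟩

theorem isClosed_R : IsClosed (R : Set B) := by
  have : (R : Set B) = (⋂ a, {T | ρX a * T = T * ρX a}) ∩ ⋂ a, {T | ρZ a * T = T * ρZ a} := by
    ext T; simp [mem_R]
  rw [this]
  exact (isClosed_iInter fun a => isClosed_eq (by fun_prop) (by fun_prop)).inter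
    (isClosed_iInter fun a => isClosed_eq (by fun_prop) (by fun_prop))

theorem X_mem_R (a : Γ) : 𝔩.X a ∈ R := by
  rw [mem_R]
  constructor
  · intro b
    simp only [𝔩, ρX, mk_mul]
    congr 1
    · rw [add_comm]
    · funext g; simp
  · intro b
    simp only [𝔩, ρZ, mk_mul]
    congr 1
    rw [add_comm]

theorem Z_mem_R (a : Γ) : 𝔩.Z a ∈ R := by
  rw [mem_R]
  constructor
  · intro b
    simp only [𝔩, ρX, mk_mul]
    congr 1
    · rw [add_comm]
    · funext g; simp only [Prod.snd_add, Prod.fst_add, pr_add_left, pr_add_right]; ring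
  · intro b
    simp only [𝔩, ρZ, mk_mul]
    congr 1
    · rw [add_comm]
    · funext g; simp

/-- the vacuum vector -/
def Ω : H := δ 0

theorem norm_Ω : ‖Ω‖ = 1 := δ.orthonormal.1 0

theorem δ_eq (g : G) : δ g = ρZ g.2 (ρX g.1 Ω) := by
  simp [ρZ, ρX, Ω, mk_apply]

theorem apply_δ {T : B} (hT : T ∈ R) (g : G) : T (δ g) = ρZ g.2 (ρX g.1 (T Ω)) := by
  rw [mem_R] at hT
  rw [δ_eq, ← ContinuousLinearMap.mul_apply, ← hT.2, ContinuousLinearMap.mul_apply,
    ← ContinuousLinearMap.mul_apply T, ← hT.1, ContinuousLinearMap.mul_apply]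

theorem eq_zero_of_Ω {T : B} (hT : T ∈ R) (h : T Ω = 0) : T = 0 :=
  ext_basis δ fun g => by rw [apply_δ hT, h]; simp

/-- the trace -/
def τ : B →L[ℂ] ℂ := (innerSL ℂ Ω) ∘L (ContinuousLinearMap.apply ℂ H Ω)

theorem τ_apply (T : B) : τ T = ⟪Ω, T Ω⟫_ℂ := rfl

theorem τ_one : τ 1 = 1 := by
  rw [τ_apply, ContinuousLinearMap.one_apply, inner_self_eq_norm_sq_to_K, norm_Ω]; simp

theorem star_apply_inner (S : B) (x y : H) : ⟪star S x, y⟫_ℂ = ⟪x, S y⟫_ℂ := by
  rw [ContinuousLinearMap.star_eq_adjoint, ContinuousLinearMap.adjoint_inner_left]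

theorem apply_inner (S : B) (x y : H) : ⟪S x, y⟫_ℂ = ⟪x, star S y⟫_ℂ := by
  rw [ContinuousLinearMap.star_eq_adjoint, ContinuousLinearMap.adjoint_inner_right]

theorem τ_star_mul_self (T : B) : τ (star T * T) = ((‖T Ω‖ ^ 2 : ℝ) : ℂ) := by
  rw [τ_apply, ContinuousLinearMap.mul_apply, ← apply_inner, inner_self_eq_norm_sq_to_K]
  simp

theorem norm_τ_le (T : B) : ‖τ T‖ ≤ ‖T‖ := by
  rw [τ_apply]
  refine (norm_inner_le_norm _ _).trans ?_
  rw [norm_Ω, one_mul]
  simpa [norm_Ω] using T.le_opNorm Ω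

theorem inner_star_Ω {S : B} (hS : S ∈ R) (g : G) :
    ⟪star S Ω, δ g⟫_ℂ = ch (pr g.1 g.2) * ⟪δ g, S Ω⟫_ℂ := by
  rw [star_apply_inner, apply_δ hS, ← star_ρZ, ← apply_inner, ← star_ρX, ← apply_inner]
  simp [ρX, ρZ, Ω, mk_apply, inner_smul_left, mul_comm]

theorem τ_comm {S T : B} (hS : S ∈ R) (hT : T ∈ R) : τ (S * T) = τ (T * S) := by
  rw [τ_apply, τ_apply, ContinuousLinearMap.mul_apply, ContinuousLinearMap.mul_apply,
    ← star_apply_inner S Ω (T Ω), ← star_apply_inner T Ω (S Ω), ← δ.tsum_inner_mul_inner (star S Ω),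
    ← δ.tsum_inner_mul_inner (star T Ω)]
  congr 1
  funext g
  rw [inner_star_Ω hS, inner_star_Ω hT]
  ring

theorem τ_mon (g : G) : τ (𝔩.mon g) = if g = 0 then 1 else 0 := by
  split_ifs with h
  · rw [h, 𝔩.mon_zero, τ_one]
  · simp only [τ_apply, Pauli.mon, 𝔩, Ω, ContinuousLinearMap.mul_apply, mk_apply, map_smul,
      inner_smul_right]
    rw [δ.orthonormal.2]
    · simp
    · intro h'
      apply h
      simpa using h'.symm

theorem mon_Ω (g : G) : 𝔩.mon g Ω = δ g := by
  simp [Pauli.mon, 𝔩, Ω, mk_apply]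

theorem P_mem_R (k : ℕ) : 𝔩.P k ∈ R := by
  induction k with
  | zero => exact one_mem _
  | succ k ih => exact mul_mem ih (SMulMemClass.smul_mem _ (add_mem (one_mem _) (Z_mem_R _)))

theorem τ_P (k : ℕ) : τ (𝔩.P k) = (1 / 2) ^ k := by
  induction k with
  | zero => simp [Pauli.P, τ_one]
  | succ k ih =>
    have h1 := congrArg τ (𝔩.X_P_X_succ k)
    rw [map_add, τ_comm (mul_mem (X_mem_R _) (P_mem_R _)) (X_mem_R _), ← mul_assoc,
      𝔩.X_mul_self, one_mul, ih] at h1
    rw [pow_succ, ← h1]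
    ring

theorem norm_P_Ω (k : ℕ) : ‖𝔩.P k Ω‖ ^ 2 = (1 / 2) ^ k := by
  have := τ_star_mul_self (𝔩.P k)
  rw [𝔩.star_P, 𝔩.P_mul_self, τ_P] at this
  apply Complex.ofReal_injective
  rw [← this]
  push_cast
  rfl

theorem tendsto_P (x : H) : Tendsto (fun n => 𝔩.P n x) atTop (𝓝 0) := by
  have h0 : Tendsto (fun n => 𝔩.P n Ω) atTop (𝓝 0) := by
    rw [tendsto_zero_iff_norm_tendsto_zero]
    have : Tendsto (fun n => √((1 / 2 : ℝ) ^ n)) atTop (𝓝 (√0)) :=
      (tendsto_pow_atTop_nhds_zero_of_lt_one (by norm_num) (by norm_num)).sqrt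
    rw [Real.sqrt_zero] at this
    refine this.congr fun n => ?_
    rw [← norm_P_Ω, Real.sqrt_sq (norm_nonneg _)]
  have h1 : ∀ x ∈ Submodule.span ℂ (Set.range δ), Tendsto (fun n => 𝔩.P n x) atTop (𝓝 0) := by
    intro x hx
    induction hx using Submodule.span_induction with
    | mem x hx =>
      obtain ⟨g, rfl⟩ := hx
      have := ((ρZ g.2 ∘L ρX g.1).continuous.tendsto 0).comp h0
      rw [map_zero] at this
      refine this.congr fun n => ?_
      simp [apply_δ (P_mem_R n)]
    | zero => simp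
    | add x y _ _ h1 h2 => simpa using h1.add h2
    | smul c x _ h1 => simpa using h1.const_smul c
  rw [Metric.tendsto_atTop]
  intro ε hε
  have hd : x ∈ closure (Submodule.span ℂ (Set.range δ) : Set H) := by
    rw [← Submodule.topologicalClosure_coe, δ.dense_span]; trivial
  obtain ⟨y, hy, hxy⟩ := Metric.mem_closure_iff.1 hd (ε / 2) (by linarith)
  obtain ⟨N, hN⟩ := Metric.tendsto_atTop.1 (h1 y hy) (ε / 2) (by linarith)
  refine ⟨N, fun n hn => ?_⟩
  have h2 := hN n hn
  rw [dist_zero_right] at h2 ⊢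
  rw [dist_eq_norm] at hxy
  have h3 : ‖𝔩.P n (x - y)‖ ≤ ‖x - y‖ :=
    ((𝔩.P n).le_opNorm _).trans (mul_le_of_le_one_left (norm_nonneg _) (𝔩.norm_P_le n))
  have h4 : 𝔩.P n x = 𝔩.P n (x - y) + 𝔩.P n y := by simp
  rw [h4]
  exact (norm_add_le _ _).trans_lt (by linarith)

theorem unitary_of_isometry {w : B} (hw : w ∈ R) (h : star w * w = 1) : w ∈ unitary B := by
  rw [Unitary.mem_iff]
  refine ⟨h, ?_⟩
  have hp : 1 - w * star w ∈ R := sub_mem (one_mem _) (mul_mem hw (star_mem hw))
  have h1 : star (1 - w * star w) * (1 - w * star w) = 1 - w * star w := by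
    have : w * star w * (w * star w) = w * star w := by
      rw [mul_assoc, ← mul_assoc (star w), h, one_mul]
    simp only [star_sub, star_one, star_mul, star_star, sub_mul, mul_sub, one_mul, mul_one, this]
    abel
  have h2 := τ_star_mul_self (1 - w * star w)
  rw [h1, map_sub, τ_comm hw (star_mem hw), h, sub_self] at h2
  have h3 : ‖(1 - w * star w) Ω‖ ^ 2 = 0 := by exact_mod_cast h2.symm
  have := eq_zero_of_Ω hp (by simpa using h3)
  exact (sub_eq_zero.1 this).symm

/-- strong limit of a coherent sequence of unitaries -/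
theorem exists_limit (v : ℕ → B) (hv : ∀ n, v n ∈ unitary B) (hR : ∀ n, v n ∈ R)
    (h : ∀ n j, n ≤ j → v j * (1 - 𝔩.P n) = v n * (1 - 𝔩.P n)) :
    ∃ w ∈ R, w ∈ unitary B ∧ ∀ n, w * (1 - 𝔩.P n) = v n * (1 - 𝔩.P n) := by
  have hn : ∀ n x, ‖v n x‖ = ‖x‖ := fun n x =>
    rep_norm_unitary (StarAlgHom.id ℂ B) (hv n) x
  have hc : ∀ x, CauchySeq fun n => v n x := by
    intro x
    refine cauchySeq_of_le_tendsto_0' (fun n => 2 * ‖𝔩.P n x‖) (fun n j hj => ?_) ?_
    · have e1 : v n x - v j x = v n (𝔩.P n x) - v j (𝔩.P n x) := by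
        have := congrArg (fun T : B => T x) (h n j hj)
        simp only [ContinuousLinearMap.mul_apply, ContinuousLinearMap.sub_apply,
          ContinuousLinearMap.one_apply, map_sub] at this
        rw [sub_eq_sub_iff_sub_eq_sub, this]
      rw [dist_eq_norm, e1]
      refine (norm_sub_le _ _).trans ?_
      rw [hn, hn]; linarith
    · have := (tendsto_P x).norm.const_mul 2
      simpa using this
  choose f hf using fun x => cauchySeq_tendsto_of_complete (hc x)
  let w : B := continuousLinearMapOfTendsto v (l := atTop) (f := f) (tendsto_pi_nhds.2 hf)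
  have hw : ∀ x, Tendsto (fun n => v n x) atTop (𝓝 (w x)) := hf
  have hwR : w ∈ R := by
    have key : ∀ S : B, (∀ n, S * v n = v n * S) → S * w = w * S := by
      intro S hS
      ext1 x
      refine tendsto_nhds_unique ((S.continuous.tendsto _).comp (hw x)) ((hw (S x)).congr ?_)
      intro n
      exact (congrArg (fun T : B => T x) (hS n)).symm
    rw [mem_R]
    exact ⟨fun a => key _ fun n => (mem_R.1 (hR n)).1 a,
      fun a => key _ fun n => (mem_R.1 (hR n)).2 a⟩
  refine ⟨w, hwR, unitary_of_isometry hwR ?_, fun n => ?_⟩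
  · have : ∀ x, ‖w x‖ = ‖x‖ := fun x =>
      tendsto_nhds_unique (hw x).norm (by simp [hn])
    exact (ContinuousLinearMap.norm_map_iff_adjoint_comp_self w).1 this
  · ext1 x
    refine tendsto_nhds_unique (hw ((1 - 𝔩.P n) x)) ?_
    refine tendsto_const_nhds.congr' ?_
    filter_upwards [eventually_ge_atTop n] with j hj
    exact (congrArg (fun T : B => T x) (h n j hj)).symm

end

end Crest.Agent.R120
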