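import Mathlib

/-! Abstract Pauli systems (generators of the CAR algebra). -/

set_option autoImplicit false
set_option linter.unusedSectionVars false
set_option linter.unusedVariables false

namespace Crest.Agent.R120

open Finset

noncomputable section

/-- finitely supported bit sequences -/
abbrev Γ : Type := ℕ →₀ ZMod 2

/-- the sign character of `ZMod 2` -/
def ch (t : ZMod 2) : ℂ := if t = 0 then 1 else -1

@[simp] theorem ch_zero : ch 0 = 1 := by simp [ch]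
@[simp] theorem ch_one : ch 1 = -1 := by simp [ch]

theorem zmod2_cases (t : ZMod 2) : t = 0 ∨ t = 1 := by
  revert t; decide

theorem ch_add (s t : ZMod 2) : ch (s + t) = ch s * ch t := by
  rcases zmod2_cases s with rfl | rfl <;> rcases zmod2_cases t with rfl | rfl
  · simp
  · simp
  · simp
  · have : (1 + 1 : ZMod 2) = 0 := by decide
    simp [this]
theorem ch_mul_self (s : ZMod 2) : ch s * ch s = 1 := by
  unfold ch; split_ifs <;> simp
@[simp] theorem star_ch (s : ZMod 2) : star (ch s) = ch s := by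
  unfold ch; split_ifs <;> simp
@[simp] theorem conj_ch (s : ZMod 2) : (starRingEnd ℂ) (ch s) = ch s := star_ch s
@[simp] theorem norm_ch (s : ZMod 2) : ‖ch s‖ = 1 := by
  unfold ch; split_ifs <;> simp

theorem zmod2_eq_one {t : ZMod 2} (h : t ≠ 0) : t = 1 := by
  fin_cases t
  · exact absurd rfl h
  · rfl

theorem Γ_add_self (a : Γ) : a + a = 0 := by
  ext i
  simp only [Finsupp.add_apply, Finsupp.zero_apply]
  generalize a i = t
  fin_cases t
  · rfl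
  · decide

/-- the pairing -/
def pr (a b : Γ) : ZMod 2 := a.sum fun i x => x * b i

theorem pr_add_left (a a' b : Γ) : pr (a + a') b = pr a b + pr a' b := by
  unfold pr
  exact Finsupp.sum_add_index' (by simp) (by intros; ring)

theorem pr_add_right (a b b' : Γ) : pr a (b + b') = pr a b + pr a b' := by
  unfold pr
  simp [Finsupp.sum, mul_add, Finset.sum_add_distrib]

@[simp] theorem pr_zero_left (b : Γ) : pr 0 b = 0 := by simp [pr]
@[simp] theorem pr_zero_right (a : Γ) : pr a 0 = 0 := by simp [pr]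

/-- unit vectors -/
def e (i : ℕ) : Γ := Finsupp.single i 1

theorem pr_e_left (i : ℕ) (b : Γ) : pr (e i) b = b i := by
  simp [pr, e]

theorem pr_e_right (a : Γ) (i : ℕ) : pr a (e i) = a i := by
  classical
  unfold pr e
  rw [Finsupp.sum, Finset.sum_eq_single i]
  · simp
  · intro j _ hj
    simp [Finsupp.single_apply, hj.symm]
  · intro h
    simp [Finsupp.notMem_support_iff.1 h]

theorem e_apply (i j : ℕ) : e i j = if i = j then 1 else 0 := by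
  simp [e, Finsupp.single_apply]

/-- level: supported below `n` -/
def Lev (n : ℕ) (a : Γ) : Prop := ∀ i, n ≤ i → a i = 0

theorem Lev.mono {n m : ℕ} {a : Γ} (h : Lev n a) (hnm : n ≤ m) : Lev m a :=
  fun i hi => h i (hnm.trans hi)
theorem Lev.add {n : ℕ} {a b : Γ} (ha : Lev n a) (hb : Lev n b) : Lev n (a + b) :=
  fun i hi => by simp [ha i hi, hb i hi]
theorem lev_zero (n : ℕ) : Lev n 0 := fun _ _ => rfl
theorem lev_e {n i : ℕ} (h : i < n) : Lev n (e i) := fun j hj => by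
  rw [e_apply, if_neg (by omega)]
theorem exists_lev (a : Γ) : ∃ n, Lev n a := by
  obtain ⟨n, hn⟩ := a.support.bddAbove
  refine ⟨n + 1, fun i hi => ?_⟩
  by_contra h
  have := hn (Finsupp.mem_support_iff.2 h)
  omega
theorem Lev.exists_ne {n : ℕ} {a : Γ} (h : Lev n a) (h0 : a ≠ 0) : ∃ i < n, a i ≠ 0 := by
  by_contra hc
  push Not at hc
  apply h0
  ext i
  rcases lt_or_ge i n with h1 | h1
  · exact hc i h1
  · exact h i h1

open Classical in
/-- the finite set of elements of level `k` -/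
def Γf : ℕ → Finset Γ
  | 0 => {0}
  | k + 1 => Γf k ∪ (Γf k).image (· + e k)

theorem mem_Γf {k : ℕ} {a : Γ} : a ∈ Γf k ↔ Lev k a := by
  classical
  induction k generalizing a with
  | zero =>
    simp only [Γf, mem_singleton]
    constructor
    · rintro rfl; exact lev_zero 0
    · intro h; ext i; exact h i (Nat.zero_le _)
  | succ k ih =>
    simp only [Γf, mem_union, mem_image]
    constructor
    · rintro (h | ⟨b, hb, rfl⟩)
      · exact (ih.1 h).mono (Nat.le_succ _)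
      · exact ((ih.1 hb).mono (Nat.le_succ _)).add (lev_e (Nat.lt_succ_self _))
    · intro h
      by_cases hk : a k = 0
      · left
        refine ih.2 fun i hi => ?_
        rcases hi.eq_or_lt with rfl | h1
        · exact hk
        · exact h i h1
      · right
        refine ⟨a + e k, ih.2 fun i hi => ?_, by rw [add_assoc, Γ_add_self, add_zero]⟩
        rcases hi.eq_or_lt with rfl | h1
        · rw [Finsupp.add_apply, zmod2_eq_one hk, e_apply, if_pos rfl]; decide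
        · rw [Finsupp.add_apply, h i h1, e_apply, if_neg (by omega), add_zero]

theorem sum_Γf_succ {M : Type*} [AddCommMonoid M] (k : ℕ) (f : Γ → M) :
    ∑ a ∈ Γf (k + 1), f a = ∑ a ∈ Γf k, (f a + f (a + e k)) := by
  classical
  rw [Finset.sum_add_distrib]
  simp only [Γf]
  rw [Finset.sum_union, Finset.sum_image (fun a _ b _ h => add_right_cancel h)]
  rw [Finset.disjoint_left]
  intro a ha hb
  obtain ⟨b, hb', rfl⟩ := mem_image.1 hb
  have h1 := (mem_Γf.1 ha) k le_rfl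
  have h2 := (mem_Γf.1 hb') k le_rfl
  rw [Finsupp.add_apply, h2, e_apply, if_pos rfl] at h1
  revert h1; decide

/-- A Pauli system in a star algebra. -/
structure Pauli (𝔄 : Type*) [Ring 𝔄] [StarRing 𝔄] [Algebra ℂ 𝔄] where
  X : Γ → 𝔄
  Z : Γ → 𝔄
  X_zero : X 0 = 1
  Z_zero : Z 0 = 1
  X_add : ∀ a b, X (a + b) = X a * X b
  Z_add : ∀ a b, Z (a + b) = Z a * Z b
  star_X : ∀ a, star (X a) = X a
  star_Z : ∀ a, star (Z a) = Z a
  ZX : ∀ a b, Z b * X a = ch (pr a b) • (X a * Z b)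

namespace Pauli

variable {𝔄 : Type*} [Ring 𝔄] [StarRing 𝔄] [Algebra ℂ 𝔄] [StarModule ℂ 𝔄] (𝔭 : Pauli 𝔄)

theorem X_mul_self (a : Γ) : 𝔭.X a * 𝔭.X a = 1 := by rw [← 𝔭.X_add, Γ_add_self, 𝔭.X_zero]
theorem Z_mul_self (a : Γ) : 𝔭.Z a * 𝔭.Z a = 1 := by rw [← 𝔭.Z_add, Γ_add_self, 𝔭.Z_zero]
theorem X_comm (a b : Γ) : 𝔭.X a * 𝔭.X b = 𝔭.X b * 𝔭.X a := by
  rw [← 𝔭.X_add, ← 𝔭.X_add, add_comm]
theorem Z_comm (a b : Γ) : 𝔭.Z a * 𝔭.Z b = 𝔭.Z b * 𝔭.Z a := by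
  rw [← 𝔭.Z_add, ← 𝔭.Z_add, add_comm]

/-- one-site projection -/
def q (i : ℕ) : 𝔄 := (1 / 2 : ℂ) • (1 + 𝔭.Z (e i))

/-- product projections -/
def P : ℕ → 𝔄
  | 0 => 1
  | k + 1 => P k * 𝔭.q k

theorem star_q (i : ℕ) : star (𝔭.q i) = 𝔭.q i := by
  simp [q, star_smul, 𝔭.star_Z]

theorem Z_q (i : ℕ) : 𝔭.Z (e i) * 𝔭.q i = 𝔭.q i := by
  simp only [q, mul_smul_comm, mul_add, mul_one, 𝔭.Z_mul_self, add_comm]

theorem q_mul_self (i : ℕ) : 𝔭.q i * 𝔭.q i = 𝔭.q i := by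
  conv_lhs => rw [q, smul_mul_assoc, add_mul, one_mul]
  rw [← q, Z_q, ← two_smul ℂ, smul_smul]
  simp

theorem commute_Z_q (b : Γ) (i : ℕ) : Commute (𝔭.Z b) (𝔭.q i) :=
  ((Commute.one_right _).add_right (𝔭.Z_comm _ _)).smul_right _

theorem commute_q_q (i j : ℕ) : Commute (𝔭.q i) (𝔭.q j) :=
  ((Commute.one_left _).add_left (𝔭.commute_Z_q _ _)).smul_left _

theorem commute_Z_P (b : Γ) (k : ℕ) : Commute (𝔭.Z b) (𝔭.P k) := by
  induction k with
  | zero => exact Commute.one_right _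
  | succ k ih => exact ih.mul_right (𝔭.commute_Z_q _ _)

theorem commute_q_P (i k : ℕ) : Commute (𝔭.q i) (𝔭.P k) :=
  ((Commute.one_left _).add_left (𝔭.commute_Z_P _ _)).smul_left _

theorem star_P (k : ℕ) : star (𝔭.P k) = 𝔭.P k := by
  induction k with
  | zero => simp [P]
  | succ k ih => rw [P, star_mul, star_q, ih, (𝔭.commute_q_P k k).eq]

theorem q_P {i k : ℕ} (h : i < k) : 𝔭.q i * 𝔭.P k = 𝔭.P k := by
  induction k with
  | zero => omega
  | succ k ih =>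
    rcases (Nat.lt_succ_iff.1 h).eq_or_lt with rfl | h1
    · rw [P, ← mul_assoc, (𝔭.commute_q_P i i).eq, mul_assoc, q_mul_self]
    · rw [P, ← mul_assoc, ih h1]

theorem P_mul_P {k l : ℕ} (h : k ≤ l) : 𝔭.P k * 𝔭.P l = 𝔭.P l := by
  induction k with
  | zero => simp [P]
  | succ k ih => rw [P, mul_assoc, 𝔭.q_P h, ih (by omega)]

theorem P_mul_P' {k l : ℕ} (h : k ≤ l) : 𝔭.P l * 𝔭.P k = 𝔭.P l := by
  have := congrArg star (𝔭.P_mul_P h)
  rwa [star_mul, star_P, star_P] at this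

theorem P_mul_self (k : ℕ) : 𝔭.P k * 𝔭.P k = 𝔭.P k := 𝔭.P_mul_P le_rfl

theorem commute_q_X {i : ℕ} {a : Γ} (h : a i = 0) : Commute (𝔭.q i) (𝔭.X a) := by
  refine ((Commute.one_left _).add_left ?_).smul_left _
  show _ = _
  rw [𝔭.ZX, pr_e_right, h, ch_zero, one_smul]

theorem q_X {i : ℕ} {a : Γ} (h : a i ≠ 0) : 𝔭.q i * 𝔭.X a = 𝔭.X a * (1 - 𝔭.q i) := by
  have : 1 - 𝔭.q i = (1 / 2 : ℂ) • (1 - 𝔭.Z (e i)) := by
    rw [q]
    module
  rw [this, q, smul_mul_assoc, mul_smul_comm, add_mul, mul_sub, 𝔭.ZX, pr_e_right,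
    zmod2_eq_one h, ch_one]
  simp [sub_eq_add_neg]

theorem commute_P_X {k : ℕ} {a : Γ} (h : ∀ i < k, a i = 0) : Commute (𝔭.P k) (𝔭.X a) := by
  induction k with
  | zero => exact Commute.one_left _
  | succ k ih =>
    exact (ih fun i hi => h i (by omega)).mul_left (𝔭.commute_q_X (h k (by omega)))

theorem P_X_P {k l i : ℕ} {a : Γ} (hk : i < k) (hl : i < l) (h : a i ≠ 0) :
    𝔭.P k * 𝔭.X a * 𝔭.P l = 0 := by
  rw [← 𝔭.q_P hk, ← 𝔭.q_P hl, (𝔭.commute_q_P i k).eq, mul_assoc (𝔭.P k), 𝔭.q_X h]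
  simp only [mul_assoc]
  rw [← mul_assoc (1 - 𝔭.q i), sub_mul, one_mul, q_mul_self, sub_self, zero_mul, mul_zero,
    mul_zero]

theorem Z_P {k : ℕ} {b : Γ} (h : Lev k b) : 𝔭.Z b * 𝔭.P k = 𝔭.P k := by
  induction b using Finsupp.induction with
  | zero => rw [𝔭.Z_zero, one_mul]
  | single_add i t f hi ht ih =>
    have hf : f i = 0 := Finsupp.notMem_support_iff.1 hi
    have hik : i < k := by
      by_contra hc
      have := h i (not_lt.1 hc)
      simp [hf, ht] at this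
    have hl : Lev k f := by
      intro j hj
      have := h j hj
      rwa [Finsupp.add_apply, Finsupp.single_apply, if_neg (by omega), zero_add] at this
    rw [𝔭.Z_add, mul_assoc, ih hl, zmod2_eq_one ht, ← 𝔭.q_P hik, ← mul_assoc]
    congr 1
    exact 𝔭.Z_q i

theorem resolution (k : ℕ) : ∑ a ∈ Γf k, 𝔭.X a * 𝔭.P k * 𝔭.X a = 1 := by
  induction k with
  | zero => simp [Γf, P, 𝔭.X_zero]
  | succ k ih =>
    rw [sum_Γf_succ, ← ih]
    refine Finset.sum_congr rfl fun a _ => ?_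
    have h1 : Commute (𝔭.P k) (𝔭.X (e k)) := 𝔭.commute_P_X fun i hi => by
      rw [e_apply, if_neg (by omega)]
    have h2 : 𝔭.X (e k) * (𝔭.P k * 𝔭.q k) * 𝔭.X (e k) = 𝔭.P k * (1 - 𝔭.q k) := by
      rw [← mul_assoc, ← h1.eq, mul_assoc, mul_assoc, 𝔭.q_X (by rw [e_apply, if_pos rfl]; decide),
        ← mul_assoc (𝔭.X (e k)), X_mul_self, one_mul]
    have h3 : 𝔭.X (a + e k) * 𝔭.P (k + 1) * 𝔭.X (a + e k) =
        𝔭.X a * (𝔭.P k * (1 - 𝔭.q k)) * 𝔭.X a := by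
      rw [← h2]
      conv_lhs => rw [𝔭.X_add a, P]
      conv_lhs => rw [← 𝔭.X_add a, add_comm a (e k), 𝔭.X_add (e k) a]
      conv_lhs => enter [1, 1]; rw [𝔭.X_comm]
      simp only [mul_assoc]
    rw [h3, P, ← add_mul, ← mul_add, ← mul_add]
    simp

theorem X_P_X_succ (k : ℕ) :
    𝔭.P (k + 1) + 𝔭.X (e k) * 𝔭.P (k + 1) * 𝔭.X (e k) = 𝔭.P k := by
  have h1 : Commute (𝔭.P k) (𝔭.X (e k)) := 𝔭.commute_P_X fun i hi => by
    rw [e_apply, if_neg (by omega)]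
  have h2 : 𝔭.X (e k) * (𝔭.P k * 𝔭.q k) * 𝔭.X (e k) = 𝔭.P k * (1 - 𝔭.q k) := by
    rw [← mul_assoc, ← h1.eq, mul_assoc, mul_assoc, 𝔭.q_X (by rw [e_apply, if_pos rfl]; decide),
      ← mul_assoc (𝔭.X (e k)), X_mul_self, one_mul]
  rw [P, h2, ← mul_add]
  simp

/-- monomials -/
def mon (g : Γ × Γ) : 𝔄 := 𝔭.X g.1 * 𝔭.Z g.2

theorem mon_mul (g h : Γ × Γ) : 𝔭.mon g * 𝔭.mon h = ch (pr h.1 g.2) • 𝔭.mon (g + h) := by
  simp only [mon, Prod.fst_add, Prod.snd_add, 𝔭.X_add, 𝔭.Z_add]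
  rw [mul_assoc, ← mul_assoc (𝔭.Z g.2), 𝔭.ZX]
  simp only [smul_mul_assoc, mul_smul_comm, mul_assoc]

theorem star_mon (g : Γ × Γ) : star (𝔭.mon g) = ch (pr g.1 g.2) • 𝔭.mon g := by
  simp only [mon, star_mul, 𝔭.star_X, 𝔭.star_Z, 𝔭.ZX]

theorem mon_zero : 𝔭.mon 0 = 1 := by simp [mon, 𝔭.X_zero, 𝔭.Z_zero]

/-- the level `n` matrix algebra, as a subspace -/
def M (n : ℕ) : Submodule ℂ 𝔄 :=
  Submodule.span ℂ {x | ∃ g : Γ × Γ, Lev n g.1 ∧ Lev n g.2 ∧ x = 𝔭.mon g}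

variable {𝔭}

theorem mon_mem {n : ℕ} {g : Γ × Γ} (h1 : Lev n g.1) (h2 : Lev n g.2) : 𝔭.mon g ∈ 𝔭.M n :=
  Submodule.subset_span ⟨g, h1, h2, rfl⟩

theorem M_mono {n m : ℕ} (h : n ≤ m) : 𝔭.M n ≤ 𝔭.M m :=
  Submodule.span_mono fun _ ⟨g, h1, h2, h3⟩ => ⟨g, h1.mono h, h2.mono h, h3⟩

theorem one_mem_M (n : ℕ) : (1 : 𝔄) ∈ 𝔭.M n := by
  rw [← 𝔭.mon_zero]; exact mon_mem (lev_zero n) (lev_zero n)

theorem X_mem {n : ℕ} {a : Γ} (h : Lev n a) : 𝔭.X a ∈ 𝔭.M n := by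
  have := mon_mem (𝔭 := 𝔭) (g := (a, 0)) h (lev_zero n)
  simpa [mon, 𝔭.Z_zero] using this

theorem Z_mem {n : ℕ} {a : Γ} (h : Lev n a) : 𝔭.Z a ∈ 𝔭.M n := by
  have := mon_mem (𝔭 := 𝔭) (g := (0, a)) (lev_zero n) h
  simpa [mon, 𝔭.X_zero] using this

theorem mul_mem_M {n : ℕ} {x y : 𝔄} (hx : x ∈ 𝔭.M n) (hy : y ∈ 𝔭.M n) : x * y ∈ 𝔭.M n := by
  induction hx using Submodule.span_induction with
  | mem x hx =>
    obtain ⟨g, g1, g2, rfl⟩ := hx
    induction hy using Submodule.span_induction with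
    | mem y hy =>
      obtain ⟨h, h1, h2, rfl⟩ := hy
      rw [mon_mul]
      exact Submodule.smul_mem _ _ (mon_mem (g1.add h1) (g2.add h2))
    | zero => simp
    | add y y' _ _ h1 h2 => rw [mul_add]; exact add_mem h1 h2
    | smul c y _ h1 => rw [mul_smul_comm]; exact Submodule.smul_mem _ _ h1
  | zero => simp
  | add x x' _ _ h1 h2 => rw [add_mul]; exact add_mem h1 h2
  | smul c x _ h1 => rw [smul_mul_assoc]; exact Submodule.smul_mem _ _ h1

theorem star_mem_M {n : ℕ} {x : 𝔄} (hx : x ∈ 𝔭.M n) : star x ∈ 𝔭.M n := by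
  induction hx using Submodule.span_induction with
  | mem x hx =>
    obtain ⟨g, g1, g2, rfl⟩ := hx
    rw [star_mon]
    exact Submodule.smul_mem _ _ (mon_mem g1 g2)
  | zero => simp
  | add x x' _ _ h1 h2 => rw [star_add]; exact add_mem h1 h2
  | smul c x _ h1 => rw [star_smul]; exact Submodule.smul_mem _ _ h1

theorem P_mem {k n : ℕ} (h : k ≤ n) : 𝔭.P k ∈ 𝔭.M n := by
  induction k with
  | zero => exact one_mem_M n
  | succ k ih =>
    exact mul_mem_M (ih (by omega))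
      (Submodule.smul_mem _ _ (add_mem (one_mem_M n) (Z_mem (lev_e h))))

theorem P_M_P {n : ℕ} {x : 𝔄} (hx : x ∈ 𝔭.M n) : ∃ c : ℂ, 𝔭.P n * x * 𝔭.P n = c • 𝔭.P n := by
  induction hx using Submodule.span_induction with
  | mem x hx =>
    obtain ⟨g, g1, g2, rfl⟩ := hx
    rw [mon, mul_assoc, mul_assoc, 𝔭.Z_P g2, ← mul_assoc]
    by_cases h0 : g.1 = 0
    · exact ⟨1, by rw [h0, 𝔭.X_zero, mul_one, P_mul_self, one_smul]⟩
    · obtain ⟨i, hi, hne⟩ := g1.exists_ne h0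
      exact ⟨0, by rw [𝔭.P_X_P hi hi hne, zero_smul]⟩
  | zero => exact ⟨0, by simp⟩
  | add x x' _ _ h1 h2 =>
    obtain ⟨c, hc⟩ := h1
    obtain ⟨d, hd⟩ := h2
    exact ⟨c + d, by rw [mul_add, add_mul, hc, hd, add_smul]⟩
  | smul c x _ h1 =>
    obtain ⟨d, hd⟩ := h1
    exact ⟨c * d, by rw [mul_smul_comm, smul_mul_assoc, hd, smul_smul]⟩

theorem P_X_X_P {k : ℕ} {a b : Γ} (ha : Lev k a) (hb : Lev k b) (hab : a ≠ b) :
    𝔭.P k * (𝔭.X a * 𝔭.X b) * 𝔭.P k = 0 := by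
  have : a + b ≠ 0 := by
    intro h
    apply hab
    rw [← add_zero a, ← Γ_add_self b, ← add_assoc, h, zero_add]
  obtain ⟨i, hi, hne⟩ := (ha.add hb).exists_ne this
  rw [← 𝔭.X_add, 𝔭.P_X_P hi hi hne]

variable (𝔭) in
/-- the amplification of `P k h P k` into the relative commutant of level `k` -/
def amp (k : ℕ) (h : 𝔄) : 𝔄 := ∑ a ∈ Γf k, 𝔭.X a * (𝔭.P k * h * 𝔭.P k) * 𝔭.X a

theorem star_amp (k : ℕ) {h : 𝔄} (hh : star h = h) : star (𝔭.amp k h) = 𝔭.amp k h := by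
  simp only [amp, star_sum, star_mul, 𝔭.star_X, star_P, hh, mul_assoc]

theorem amp_X_P {k : ℕ} (h : 𝔄) {b : Γ} (hb : Lev k b) :
    𝔭.amp k h * (𝔭.X b * 𝔭.P k) = 𝔭.X b * (𝔭.P k * h * 𝔭.P k) := by
  rw [amp, Finset.sum_mul, Finset.sum_eq_single b]
  · simp only [mul_assoc]
    rw [← mul_assoc (𝔭.X b) (𝔭.X b), X_mul_self, one_mul, P_mul_self]
  · intro a ha hab
    have := P_X_X_P (𝔭 := 𝔭) (mem_Γf.1 ha) hb hab
    simp only [mul_assoc] at this ⊢
    rw [this]; simp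
  · intro hb'
    exact absurd (mem_Γf.2 hb) hb'

theorem P_X_amp {k : ℕ} (h : 𝔄) {b : Γ} (hb : Lev k b) :
    𝔭.P k * 𝔭.X b * 𝔭.amp k h = 𝔭.P k * h * 𝔭.P k * 𝔭.X b := by
  rw [amp, Finset.mul_sum, Finset.sum_eq_single b]
  · simp only [mul_assoc]
    rw [← mul_assoc (𝔭.X b) (𝔭.X b), X_mul_self, one_mul, ← mul_assoc, P_mul_self]
  · intro a ha hab
    have := P_X_X_P (𝔭 := 𝔭) hb (mem_Γf.1 ha) hab.symm
    have e1 : 𝔭.P k * 𝔭.X b * (𝔭.X a * (𝔭.P k * h * 𝔭.P k) * 𝔭.X a) =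
        𝔭.P k * (𝔭.X b * 𝔭.X a) * 𝔭.P k * (h * 𝔭.P k * 𝔭.X a) := by simp only [mul_assoc]
    rw [e1, this, zero_mul]
  · intro hb'
    exact absurd (mem_Γf.2 hb) hb'

theorem commute_amp {k : ℕ} (h : 𝔄) {x : 𝔄} (hx : x ∈ 𝔭.M k) : Commute (𝔭.amp k h) x := by
  have e1 : x = ∑ a ∈ Γf k, ∑ b ∈ Γf k,
      𝔭.X a * (𝔭.P k * (𝔭.X a * x * 𝔭.X b) * 𝔭.P k) * 𝔭.X b := by
    conv_lhs => rw [← one_mul x, ← mul_one (1 * x)]
    conv_lhs => enter [1, 1]; rw [← 𝔭.resolution k]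
    conv_lhs => enter [2]; rw [← 𝔭.resolution k]
    rw [Finset.sum_mul, Finset.sum_mul_sum]
    simp only [mul_assoc]
  rw [e1]
  refine Commute.sum_right _ _ _ fun a ha => Commute.sum_right _ _ _ fun b hb => ?_
  obtain ⟨c, hc⟩ := P_M_P (mul_mem_M (mul_mem_M (X_mem (mem_Γf.1 ha)) hx) (X_mem (mem_Γf.1 hb)))
  rw [hc, mul_smul_comm, smul_mul_assoc]
  refine Commute.smul_right ?_ _
  show _ = _
  rw [← mul_assoc, amp_X_P h (mem_Γf.1 ha), mul_assoc (𝔭.X a) (𝔭.P k), mul_assoc (𝔭.X a),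
    mul_assoc (𝔭.X a), P_X_amp h (mem_Γf.1 hb)]

/-- transport of a Pauli system along a star algebra homomorphism -/
theorem map_P {𝔅 : Type*} [Ring 𝔅] [StarRing 𝔅] [Algebra ℂ 𝔅] [StarModule ℂ 𝔅] {𝔮 : Pauli 𝔅}
    (φ : 𝔄 →ₐ[ℂ] 𝔅) (hZ : ∀ b, φ (𝔭.Z b) = 𝔮.Z b) (k : ℕ) : φ (𝔭.P k) = 𝔮.P k := by
  induction k with
  | zero => simp [P]
  | succ k ih => simp [P, q, ih, hZ]

end Pauli

end

end Crest.Agent.R120
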