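import Crest.Agent.R120.Alg

/-! Simplicity through averaging over Pauli groups. -/

set_option autoImplicit false
set_option linter.unusedSectionVars false
set_option linter.unusedVariables false

namespace Crest.Agent.R120

open scoped InnerProductSpace ComplexConjugate
open Finset Filter Topology

noncomputable section

/-- averaging over a symmetry -/
def Av (w : B) : B →L[ℂ] B :=
  (1 / 2 : ℂ) • (ContinuousLinearMap.id ℂ B + ContinuousLinearMap.mulLeftRight ℂ B w w)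

theorem Av_apply (w b : B) : Av w b = (1 / 2 : ℂ) • (b + w * b * w) := rfl

theorem norm_Av_le {w : B} (hw : w ∈ unitary B) (b : B) : ‖Av w b‖ ≤ ‖b‖ := by
  rw [Av_apply, norm_smul]
  have h1 := norm_add_le b (w * b * w)
  have h2 := norm_mul_mul_le (norm_unitary_le hw) (norm_unitary_le hw) b
  simp only [one_div, norm_inv, Complex.norm_ofNat]
  linarith

/-- averaging over the Pauli group of level `n` -/
def avg : ℕ → B →L[ℂ] B
  | 0 => ContinuousLinearMap.id ℂ B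
  | n + 1 => Av (𝔩.X (e n)) ∘L Av (𝔩.Z (e n)) ∘L avg n

theorem avg_succ (n : ℕ) (b : B) : avg (n + 1) b = Av (𝔩.X (e n)) (Av (𝔩.Z (e n)) (avg n b)) :=
  rfl

theorem norm_avg_le (n : ℕ) (b : B) : ‖avg n b‖ ≤ ‖b‖ := by
  induction n with
  | zero => exact le_rfl
  | succ n ih =>
    rw [avg_succ]
    exact (norm_Av_le (𝔩.X_unitary _) _).trans ((norm_Av_le (𝔩.Z_unitary _) _).trans ih)

theorem Av_of_sign {w b : B} {t : ZMod 2} (h : w * b * w = ch t • b) :
    Av w b = if t = 0 then b else 0 := by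
  rw [Av_apply, h]
  split_ifs with ht
  · rw [ht, ch_zero]; module
  · rw [zmod2_eq_one ht, ch_one]; module

theorem Av_Z_mon (i : ℕ) (g : G) :
    Av (𝔩.Z (e i)) (𝔩.mon g) = if g.1 i = 0 then 𝔩.mon g else 0 := by
  apply Av_of_sign
  rw [Pauli.mon, ← mul_assoc, 𝔩.ZX, pr_e_right, smul_mul_assoc, smul_mul_assoc, mul_assoc,
    mul_assoc, 𝔩.Z_comm g.2, ← mul_assoc (𝔩.Z (e i)), 𝔩.Z_mul_self, one_mul]

theorem Av_X_mon (i : ℕ) (g : G) :
    Av (𝔩.X (e i)) (𝔩.mon g) = if g.2 i = 0 then 𝔩.mon g else 0 := by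
  apply Av_of_sign
  rw [Pauli.mon, mul_assoc, mul_assoc, 𝔩.ZX, pr_e_left, mul_smul_comm, mul_smul_comm,
    ← mul_assoc (𝔩.X g.1), 𝔩.X_comm g.1, ← mul_assoc, ← mul_assoc, 𝔩.X_mul_self, one_mul]

open Classical in
theorem avg_mon (n : ℕ) (g : G) :
    avg n (𝔩.mon g) = if ∀ i < n, g.1 i = 0 ∧ g.2 i = 0 then 𝔩.mon g else 0 := by
  induction n with
  | zero => simp [avg]
  | succ n ih =>
    rw [avg_succ, ih]
    by_cases h1 : ∀ i < n, g.1 i = 0 ∧ g.2 i = 0
    · rw [if_pos h1, Av_Z_mon]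
      by_cases h2 : g.1 n = 0
      · rw [if_pos h2, Av_X_mon]
        by_cases h3 : g.2 n = 0
        · rw [if_pos h3, if_pos]
          intro i hi
          rcases (Nat.lt_succ_iff.1 hi).eq_or_lt with rfl | hi
          · exact ⟨h2, h3⟩
          · exact h1 i hi
        · rw [if_neg h3, if_neg fun h => h3 (h n (Nat.lt_succ_self n)).2]
      · rw [if_neg h2, map_zero, if_neg fun h => h2 (h n (Nat.lt_succ_self n)).1]
    · rw [if_neg h1, map_zero, map_zero, if_neg fun h => h1 fun i hi => h i (by omega)]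

theorem avg_one (n : ℕ) : avg n 1 = 1 := by
  rw [← 𝔩.mon_zero, avg_mon, if_pos]
  simp

/-- elements whose averages converge to the trace -/
def 𝓓 : Submodule ℂ B where
  carrier := {b | Tendsto (fun n => avg n b) atTop (𝓝 (τ b • 1))}
  zero_mem' := by simp
  add_mem' := by
    intro a b ha hb
    simpa [add_smul] using ha.add hb
  smul_mem' := by
    intro t b hb
    simpa [mul_smul] using hb.const_smul t

theorem mem_𝓓 {b : B} : b ∈ 𝓓 ↔ Tendsto (fun n => avg n b) atTop (𝓝 (τ b • 1)) := Iff.rfl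

theorem norm_smul_one_le (c : ℂ) : ‖c • (1 : B)‖ ≤ ‖c‖ := by
  rw [norm_smul]
  exact mul_le_of_le_one_right (norm_nonneg _) (norm_unitary_le (one_mem _))

theorem mem_𝓓_of {b : B}
    (h : ∀ ε > 0, ∃ a ∈ 𝓓, ‖τ (b - a)‖ ≤ ε ∧ ∀ᶠ n in atTop, ‖avg n (b - a)‖ ≤ ε) : b ∈ 𝓓 := by
  rw [mem_𝓓, Metric.tendsto_nhds]
  intro ε hε
  obtain ⟨a, ha, h1, h2⟩ := h (ε / 3) (by linarith)
  filter_upwards [h2, Metric.tendsto_nhds.1 ha (ε / 3) (by linarith)] with n h2 h3
  rw [dist_eq_norm] at h3 ⊢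
  have : avg n b - τ b • 1 = (avg n a - τ a • 1) + (avg n (b - a) - τ (b - a) • 1) := by
    rw [map_sub, map_sub, sub_smul]; abel
  rw [this]
  have h4 := norm_sub_le (avg n (b - a)) (τ (b - a) • 1)
  have h5 := norm_smul_one_le (τ (b - a))
  exact (norm_add_le _ _).trans_lt (by linarith)

theorem isClosed_𝓓 : IsClosed (𝓓 : Set B) := by
  refine isClosed_of_closure_subset fun b hb => mem_𝓓_of fun ε hε => ?_
  obtain ⟨a, ha, hab⟩ := Metric.mem_closure_iff.1 hb ε hε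
  rw [dist_eq_norm] at hab
  exact ⟨a, ha, (norm_τ_le _).trans hab.le,
    Eventually.of_forall fun n => (norm_avg_le n _).trans hab.le⟩

theorem mem_𝓓_of_A₀ {a : B} (ha : a ∈ A₀) : a ∈ 𝓓 := by
  refine A₀_induction 𝓓 isClosed_𝓓 (fun g => ?_) ha
  rw [mem_𝓓, τ_mon]
  split_ifs with h
  · simp [h, 𝔩.mon_zero, avg_one]
  · rw [zero_smul]
    have : ∃ i, ¬ (g.1 i = 0 ∧ g.2 i = 0) := by
      by_contra hc
      push Not at hc
      exact h (Prod.ext (Finsupp.ext fun i => (hc i).1) (Finsupp.ext fun i => (hc i).2))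
    obtain ⟨i, hi⟩ := this
    refine tendsto_const_nhds.congr' ?_
    filter_upwards [eventually_gt_atTop i] with n hn
    rw [avg_mon, if_neg fun h => hi (h i hn)]

/-- domination `r⋆ r ≤ y` -/
def Dom (r y : B) : Prop := ∀ x : H, ‖r x‖ ^ 2 ≤ (⟪x, y x⟫_ℂ).re

theorem norm_half_add_sq (u v : H) : ‖u + v‖ ^ 2 ≤ 2 * ‖u‖ ^ 2 + 2 * ‖v‖ ^ 2 := by
  have h1 := norm_add_le u v
  have h2 : ‖u + v‖ ^ 2 ≤ (‖u‖ + ‖v‖) ^ 2 := by gcongr
  nlinarith [sq_nonneg (‖u‖ - ‖v‖)]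

theorem Dom.Av {r y w : B} (h : Dom r y) (hw : w ∈ unitary B) (hs : star w = w) :
    Dom (Av w r) (Av w y) := by
  intro x
  have h1 := h x
  have h2 := h (w x)
  have h3 : ‖w (r (w x))‖ = ‖r (w x)‖ := rep_norm_unitary (StarAlgHom.id ℂ B) hw _
  have h4 := norm_half_add_sq (r x) (w (r (w x)))
  have h5 : ⟪x, w (y (w x))⟫_ℂ = ⟪w x, y (w x)⟫_ℂ := by
    rw [apply_inner, hs]
  simp only [Av_apply, ContinuousLinearMap.smul_apply, ContinuousLinearMap.add_apply,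
    ContinuousLinearMap.mul_apply, norm_smul, inner_smul_right, inner_add_right, h5]
  simp only [one_div, norm_inv, Complex.norm_ofNat, Complex.mul_re, Complex.inv_re,
    Complex.re_ofNat, Complex.normSq_ofNat, Complex.inv_im, Complex.im_ofNat, Complex.add_re]
  rw [h3] at h4
  nlinarith

theorem Dom.avg {r y : B} (h : Dom r y) (n : ℕ) : Dom (avg n r) (avg n y) := by
  induction n with
  | zero => exact h
  | succ n ih =>
    rw [avg_succ, avg_succ]
    exact (ih.Av (𝔩.Z_unitary _) (𝔩.star_Z _)).Av (𝔩.X_unitary _) (𝔩.star_X _)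

theorem Dom.norm_le {r y : B} (h : Dom r y) {ε : ℝ} (hε : 0 ≤ ε) (hy : ‖y‖ ≤ ε ^ 2) :
    ‖r‖ ≤ ε := by
  refine r.opNorm_le_bound hε fun x => ?_
  have h1 : ‖⟪x, y x⟫_ℂ‖ ≤ ‖x‖ * (‖y‖ * ‖x‖) :=
    (norm_inner_le_norm _ _).trans (by gcongr; exact y.le_opNorm x)
  have h2 := (h x).trans ((Complex.re_le_norm _).trans h1)
  refine (pow_le_pow_iff_left₀ (norm_nonneg _) (by positivity) two_ne_zero).1 (h2.trans ?_)
  calc ‖x‖ * (‖y‖ * ‖x‖) ≤ ‖x‖ * (ε ^ 2 * ‖x‖) := by gcongr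
    _ = _ := by ring

theorem Dom.add {r y r' y' : B} (h : Dom r y) (h' : Dom r' y') :
    Dom (r + r') ((2 : ℂ) • (y + y')) := by
  intro x
  have h1 := h x
  have h2 := h' x
  have h3 := norm_half_add_sq (r x) (r' x)
  simp only [ContinuousLinearMap.smul_apply, ContinuousLinearMap.add_apply, inner_smul_right,
    inner_add_right, Complex.mul_re, Complex.re_ofNat, Complex.im_ofNat, Complex.add_re]
  linarith

theorem Dom.mul {r y : B} (h : Dom r y) (t : B) : Dom (t * r) (((‖t‖ ^ 2 : ℝ) : ℂ) • y) := by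
  intro x
  have h1 := h x
  have h2 : ‖t (r x)‖ ^ 2 ≤ (‖t‖ * ‖r x‖) ^ 2 := by gcongr; exact t.le_opNorm _
  simp only [ContinuousLinearMap.smul_apply, ContinuousLinearMap.mul_apply, inner_smul_right,
    Complex.re_ofReal_mul]
  rw [mul_pow] at h2
  exact h2.trans (by gcongr)

theorem dom_self (r : B) : Dom r (star r * r) := by
  intro x
  rw [ContinuousLinearMap.mul_apply, ← apply_inner, inner_self_eq_norm_sq_to_K]
  norm_cast

theorem dom_norm (r : B) : Dom r (((‖r‖ ^ 2 : ℝ) : ℂ) • 1) := by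
  have := (dom_self 1).mul r
  simpa using this

theorem Dom.norm_τ_le {r y : B} (h : Dom r y) {ε : ℝ} (hε : 0 ≤ ε) (hy : ‖τ y‖ ≤ ε ^ 2) :
    ‖τ r‖ ≤ ε := by
  have h1 := (h Ω).trans ((Complex.re_le_norm _).trans hy)
  have h2 := (pow_le_pow_iff_left₀ (norm_nonneg _) hε two_ne_zero).1 h1
  rw [τ_apply]
  refine (norm_inner_le_norm _ _).trans ?_
  rwa [norm_Ω, one_mul]

/-- tame elements -/
def Tame (b : B) : Prop := ∀ ε > 0, ∃ a ∈ A₀, ∃ y ∈ A₀, ‖τ y‖ ≤ ε ∧ Dom (b - a) y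

theorem tame_of_A₀ {a : B} (ha : a ∈ A₀) : Tame a := fun ε hε =>
  ⟨a, ha, 0, zero_mem _, by simpa using hε.le, fun x => by simp⟩

theorem Tame.of_approx {b : B}
    (h : ∀ ε > 0, ∃ a, Tame a ∧ ∃ y ∈ A₀, ‖τ y‖ ≤ ε ∧ Dom (b - a) y) : Tame b := by
  intro ε hε
  obtain ⟨c, hc, y, hy, h1, h2⟩ := h (ε / 4) (by linarith)
  obtain ⟨a, ha, y', hy', h1', h2'⟩ := hc (ε / 4) (by linarith)
  refine ⟨a, ha, (2 : ℂ) • (y + y'), SMulMemClass.smul_mem _ (add_mem hy hy'),
    ?_, by simpa using h2.add h2'⟩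
  rw [map_smul, map_add, norm_smul, Complex.norm_ofNat]
  have := norm_add_le (τ y) (τ y')
  linarith

theorem Tame.mul {t : B} (ht : ∀ a ∈ A₀, Tame (t * a)) {b : B} (hb : Tame b) : Tame (t * b) := by
  refine Tame.of_approx fun ε hε => ?_
  obtain ⟨a, ha, y, hy, h1, h2⟩ := hb (ε / (‖t‖ ^ 2 + 1)) (by positivity)
  refine ⟨t * a, ht a ha, _, SMulMemClass.smul_mem _ hy, ?_, by rw [← mul_sub]; exact h2.mul t⟩
  rw [map_smul, norm_smul, Complex.norm_real, Real.norm_eq_abs, abs_of_nonneg (by positivity)]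
  calc _ ≤ (‖t‖ ^ 2 + 1) * (ε / (‖t‖ ^ 2 + 1)) := by gcongr; linarith
    _ = ε := by field_simp

/-- tame elements, as a subspace -/
def 𝓣 : Submodule ℂ B where
  carrier := {b | Tame b}
  zero_mem' := tame_of_A₀ (zero_mem _)
  add_mem' := by
    intro b b' hb hb' ε hε
    obtain ⟨a, ha, y, hy, h1, h2⟩ := hb (ε / 4) (by linarith)
    obtain ⟨a', ha', y', hy', h1', h2'⟩ := hb' (ε / 4) (by linarith)
    refine ⟨a + a', add_mem ha ha', (2 : ℂ) • (y + y'), SMulMemClass.smul_mem _ (add_mem hy hy'),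
      ?_, by rw [add_sub_add_comm]; exact h2.add h2'⟩
    rw [map_smul, map_add, norm_smul, Complex.norm_ofNat]
    have := norm_add_le (τ y) (τ y')
    linarith
  smul_mem' := by
    intro t b hb
    have := Tame.mul (t := t • 1) (fun a ha => tame_of_A₀
      (mul_mem (SMulMemClass.smul_mem _ (one_mem _)) ha)) hb
    rwa [smul_mul_assoc, one_mul] at this

theorem isClosed_𝓣 : IsClosed (𝓣 : Set B) := by
  refine isClosed_of_closure_subset fun b hb => Tame.of_approx fun ε hε => ?_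
  obtain ⟨a, ha, hab⟩ := Metric.mem_closure_iff.1 hb (√ε) (Real.sqrt_pos.2 hε)
  rw [dist_eq_norm] at hab
  refine ⟨a, ha, _, SMulMemClass.smul_mem _ (one_mem _), ?_, dom_norm _⟩
  rw [map_smul, τ_one, smul_eq_mul, mul_one, Complex.norm_real, Real.norm_eq_abs,
    abs_of_nonneg (by positivity), ← Real.sq_sqrt hε.le]
  gcongr

theorem τ_small {u a : B} (hu : u ∈ R) (hu' : u ∈ unitary B) (ha : a ∈ R) {ε : ℝ} (hε : 0 < ε) :
    ∃ n, ‖τ (star a * (u * 𝔩.P n * star u) * a)‖ ≤ ε := by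
  have h1 := (tendsto_P Ω).norm.const_mul ‖star a * u‖
  have h2 := h1.pow 2
  simp only [norm_zero, mul_zero, ne_eq, OfNat.ofNat_ne_zero, not_false_eq_true, zero_pow] at h2
  obtain ⟨n, hn⟩ := (h2.eventually (eventually_le_nhds hε)).exists
  refine ⟨n, le_trans ?_ hn⟩
  have hs : star a * u * 𝔩.P n ∈ R := mul_mem (mul_mem (star_mem ha) hu) (P_mem_R n)
  have e1 : star a * (u * 𝔩.P n * star u) * a =
      (star a * u * 𝔩.P n) * star (star a * u * 𝔩.P n) := by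
    simp [mul_assoc, 𝔩.star_P, ← mul_assoc (𝔩.P n) (𝔩.P n), 𝔩.P_mul_self]
  rw [e1, τ_comm hs (star_mem hs), τ_star_mul_self, Complex.norm_real, Real.norm_eq_abs,
    abs_of_nonneg (by positivity)]
  gcongr
  exact (star a * u).le_opNorm _

variable {L : Set B}

theorem Fam.tame (hL : Fam L) {b : B} (hb : b ∈ Alg L) : Tame b := by
  refine left_induction 𝓣 isClosed_𝓣 (tame_of_A₀ (one_mem _))
    (fun t ht b hb => Tame.mul (fun a ha => tame_of_A₀ (mul_mem ht ha)) hb)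
    (fun u hu => ⟨fun b hb => Tame.mul (fun a ha ε hε => ?_) hb,
      fun b hb => Tame.mul (fun a ha ε hε => ?_) hb⟩) hb
  · obtain ⟨n, hn⟩ := τ_small (one_mem _) (one_mem _) (mem_R_of_A₀ ha) hε
    refine ⟨_, mul_mem ((hL.link u hu).mem n) ha, _,
      mul_mem (mul_mem (star_mem ha) (isLink_one.conj_mem n)) ha, hn, ?_⟩
    convert dom_self (u * 𝔩.P n * a) using 1
    · simp [mul_sub, sub_mul]
    · simp [mul_assoc, 𝔩.star_P, ← mul_assoc (𝔩.P n) (𝔩.P n), 𝔩.P_mul_self,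
        ← mul_assoc (star u) u, Unitary.star_mul_self_of_mem (hL.link u hu).unitary]
  · obtain ⟨n, hn⟩ := τ_small (hL.link u hu).mem_R (hL.link u hu).unitary (mem_R_of_A₀ ha) hε
    refine ⟨_, mul_mem ((hL.link u hu).star_mem n) ha, _,
      mul_mem (mul_mem (star_mem ha) ((hL.link u hu).conj_mem n)) ha, hn, ?_⟩
    convert dom_self (𝔩.P n * star u * a) using 1
    · simp [mul_sub, sub_mul]
    · simp [mul_assoc, 𝔩.star_P, ← mul_assoc (𝔩.P n) (𝔩.P n), 𝔩.P_mul_self]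

theorem Tame.mem_𝓓 {b : B} (hb : Tame b) : b ∈ 𝓓 := by
  refine mem_𝓓_of fun ε hε => ?_
  obtain ⟨a, ha, y, hy, h1, h2⟩ := hb (ε ^ 2 / 2) (by positivity)
  refine ⟨a, mem_𝓓_of_A₀ ha, h2.norm_τ_le hε.le (by nlinarith), ?_⟩
  filter_upwards [Metric.tendsto_nhds.1 (mem_𝓓_of_A₀ hy) (ε ^ 2 / 2) (by positivity)] with n hn
  refine (h2.avg n).norm_le hε.le ?_
  rw [dist_eq_norm] at hn
  have h3 := norm_add_le (avg n y - τ y • 1) (τ y • 1)
  have h4 := norm_smul_one_le (τ y)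
  rw [sub_add_cancel] at h3
  linarith

theorem Fam.faithful (hL : Fam L) {b : B} (hb : b ∈ Alg L) (h : τ (star b * b) = 0) : b = 0 := by
  rw [τ_star_mul_self] at h
  have h3 : ‖b Ω‖ ^ 2 = 0 := by exact_mod_cast h
  exact eq_zero_of_Ω (hL.mem_R hb) (by simpa using h3)

theorem Fam.simple (hL : Fam L) (I : TwoSidedIdeal (Alg L)) (hI : IsClosed (I : Set (Alg L))) :
    I = ⊥ ∨ I = ⊤ := by
  rw [or_iff_not_imp_left]
  intro h0
  obtain ⟨b, hb, hb0⟩ : ∃ b ∈ I, b ≠ 0 := by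
    by_contra hc
    push Not at hc
    exact h0 (eq_bot_iff.2 fun b hb => (TwoSidedIdeal.mem_bot _).2 (hc b hb))
  let J : Set B := Subtype.val '' (I : Set (Alg L))
  have hJ : IsClosed J := (isClosed_Alg L).isClosedEmbedding_subtypeVal.isClosedMap _ hI
  have hAv : ∀ w ∈ A₀, ∀ x ∈ J, Av w x ∈ J := by
    rintro w hw _ ⟨x, hx, rfl⟩
    let w' : Alg L := ⟨w, A₀_le hw⟩
    refine ⟨((1 / 2 : ℂ) • 1) * (x + w' * x * w'), I.mul_mem_left _ _
      (I.add_mem hx (I.mul_mem_right _ _ (I.mul_mem_left _ _ hx))), ?_⟩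
    rw [smul_mul_assoc, one_mul]
    rfl
  have havg : ∀ n, ∀ x ∈ J, avg n x ∈ J := by
    intro n x hx
    induction n with
    | zero => exact hx
    | succ n ih => rw [avg_succ]; exact hAv _ (X_mem_A₀ _) _ (hAv _ (Z_mem_A₀ _) _ ih)
  have h1 : ((star b * b : Alg L) : B) ∈ J := ⟨_, I.mul_mem_left _ _ hb, rfl⟩
  have h2 := hJ.mem_of_tendsto (hL.tame (star b * b).2).mem_𝓓
    (Eventually.of_forall fun n => havg n _ h1)
  obtain ⟨x, hx, hx'⟩ := h2
  have h3 : τ ((star b * b : Alg L) : B) ≠ 0 := fun h =>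
    hb0 (Subtype.ext (hL.faithful b.2 h))
  set t := τ ((star b * b : Alg L) : B)
  have h4 : x = t • 1 := Subtype.ext hx'
  have h5 := I.mul_mem_left (t⁻¹ • 1) _ hx
  rw [h4, smul_mul_assoc, one_mul, smul_smul, inv_mul_cancel₀ h3, one_smul] at h5
  exact I.one_mem_iff.1 h5

theorem not_finiteDimensional (L : Set B) : ¬ FiniteDimensional ℂ (Alg L) := by
  intro h
  let f : Alg L →ₗ[ℂ] H :=
    { toFun := fun b => (b : B) Ω
      map_add' := fun _ _ => rfl
      map_smul' := fun _ _ => rfl }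
  let v : G → Alg L := fun g => ⟨𝔩.mon g, A₀_le (mon_mem_A₀ g)⟩
  have h1 : LinearIndependent ℂ (f ∘ v) := by
    have : f ∘ v = δ := funext fun g => mon_Ω g
    rw [this]
    exact δ.orthonormal.linearIndependent
  have h2 : Finite G := (h1.of_comp f).finite
  have : Infinite Γ := Infinite.of_injective e fun i j => e_inj
  exact not_finite G

end

end Crest.Agent.R120
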