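import Crest.Agent.R120.Trans
import Crest.Agent.R120.Pauli

/-! The inductive step: moving a vector under a smaller product projection while excising. -/

set_option autoImplicit false
set_option linter.unusedSectionVars false
set_option linter.unusedVariables false

namespace Crest.Agent.R120

open scoped InnerProductSpace ComplexConjugate
open Finset

noncomputable section

variable {𝔄 : Type*} [CStarAlgebra 𝔄]
variable {K : Type*} [NormedAddCommGroup K] [InnerProductSpace ℂ K] [CompleteSpace K]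

theorem norm_unitary_le {u : 𝔄} (hu : u ∈ unitary 𝔄) : ‖u‖ ≤ 1 := by
  rcases subsingleton_or_nontrivial 𝔄 with h | h
  · rw [Subsingleton.elim u 0]; simp
  · exact (CStarRing.norm_of_mem_unitary hu).le

theorem norm_rep_le (σ : 𝔄 →⋆ₐ[ℂ] (K →L[ℂ] K)) (a : 𝔄) (ξ : K) : ‖σ a ξ‖ ≤ ‖a‖ * ‖ξ‖ :=
  ((σ a).le_opNorm ξ).trans (by gcongr; exact NonUnitalStarAlgHom.norm_apply_le σ a)

theorem norm_rep_le' (σ : 𝔄 →⋆ₐ[ℂ] (K →L[ℂ] K)) {a : 𝔄} (ha : ‖a‖ ≤ 1) (ξ : K) :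
    ‖σ a ξ‖ ≤ ‖ξ‖ :=
  (norm_rep_le σ a ξ).trans (mul_le_of_le_one_left (norm_nonneg _) ha)

theorem rep_mul (σ : 𝔄 →⋆ₐ[ℂ] (K →L[ℂ] K)) (a b : 𝔄) (ξ : K) : σ (a * b) ξ = σ a (σ b ξ) := by
  rw [map_mul]; rfl

theorem rep_inner (σ : 𝔄 →⋆ₐ[ℂ] (K →L[ℂ] K)) (a : 𝔄) (ξ η : K) :
    ⟪σ a ξ, η⟫_ℂ = ⟪ξ, σ (star a) η⟫_ℂ := by
  rw [map_star, ContinuousLinearMap.star_eq_adjoint, ContinuousLinearMap.adjoint_inner_right]

theorem rep_norm_unitary (σ : 𝔄 →⋆ₐ[ℂ] (K →L[ℂ] K)) {u : 𝔄} (hu : u ∈ unitary 𝔄) (ξ : K) :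
    ‖σ u ξ‖ = ‖ξ‖ := by
  refine le_antisymm (norm_rep_le' σ (norm_unitary_le hu) ξ) ?_
  have : ξ = σ (star u) (σ u ξ) := by
    rw [← rep_mul, Unitary.star_mul_self_of_mem hu, map_one]; rfl
  conv_lhs => rw [this]
  exact norm_rep_le' σ (norm_unitary_le (Unitary.star_mem hu)) _

namespace Pauli
variable (𝔭 : Pauli 𝔄)

theorem norm_P_le (k : ℕ) : ‖𝔭.P k‖ ≤ 1 :=
  IsStarProjection.norm_le _ ⟨𝔭.P_mul_self k, 𝔭.star_P k⟩

theorem norm_one_sub_P_le (k : ℕ) : ‖1 - 𝔭.P k‖ ≤ 1 :=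
  IsStarProjection.norm_le _ (IsStarProjection.one_sub ⟨𝔭.P_mul_self k, 𝔭.star_P k⟩)

theorem X_unitary (a : Γ) : 𝔭.X a ∈ unitary 𝔄 := by
  rw [Unitary.mem_iff, 𝔭.star_X]; exact ⟨𝔭.X_mul_self a, 𝔭.X_mul_self a⟩

theorem Z_unitary (a : Γ) : 𝔭.Z a ∈ unitary 𝔄 := by
  rw [Unitary.mem_iff, 𝔭.star_Z]; exact ⟨𝔭.Z_mul_self a, 𝔭.Z_mul_self a⟩

end Pauli

theorem exists_cayley {h : 𝔄} (hh : IsSelfAdjoint h) :
    ∃ z ∈ unitary 𝔄, (∀ x, Commute h x → Commute z x) ∧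
      ∀ (σ : 𝔄 →⋆ₐ[ℂ] (K →L[ℂ] K)) (ξ : K),
        ‖σ z ξ - ξ‖ ≤ 4 * ‖σ h ξ‖ ∧ ‖σ z ξ + ξ‖ ≤ 4 * ‖σ h ξ - ξ‖ := by
  have hu : IsUnit (1 - Complex.I • h) := by
    have h1 : -Complex.I ∉ spectrum ℂ h := by
      intro hm
      have := hh.im_eq_zero_of_mem_spectrum hm
      simp at this
    rw [spectrum.notMem_iff] at h1
    have h2 : 1 - Complex.I • h = algebraMap ℂ 𝔄 Complex.I * (algebraMap ℂ 𝔄 (-Complex.I) - h) := by
      rw [mul_sub, ← map_mul, ← Algebra.smul_def]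
      simp
    rw [h2]
    exact ((isUnit_iff_ne_zero.2 Complex.I_ne_zero).map _).mul h1
  obtain ⟨U, hU⟩ := hu
  set r : 𝔄 := ↑U⁻¹ with hr
  have hr1 : r * (1 - Complex.I • h) = 1 := by rw [← hU, hr, Units.inv_mul]
  have hr2 : (1 - Complex.I • h) * r = 1 := by rw [← hU, hr, Units.mul_inv]
  have hst : star (1 - Complex.I • h) = 1 + Complex.I • h := by
    simp [star_smul, hh.star_eq]
  have hst' : star (1 + Complex.I • h) = 1 - Complex.I • h := by
    rw [← hst, star_star]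
  have hr3 : (1 + Complex.I • h) * star r = 1 := by
    rw [← hst, ← star_mul, hr1, star_one]
  have hr4 : star r * (1 + Complex.I • h) = 1 := by
    rw [← hst, ← star_mul, hr2, star_one]
  have hcr : ∀ x, Commute h x → Commute r x := by
    intro x hx
    have : Commute (U : 𝔄) x := by
      rw [hU]; exact (Commute.one_left x).sub_left (hx.smul_left _)
    exact this.units_inv_left
  have hpm : Commute (1 + Complex.I • h) (1 - Complex.I • h) :=
    (Commute.one_left _).add_left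
      (((Commute.one_right h).sub_right ((Commute.refl h).smul_right _)).smul_left _)
  have hrp : Commute r (1 + Complex.I • h) :=
    hcr _ ((Commute.one_right h).add_right ((Commute.refl h).smul_right _))
  set C : 𝔄 := (1 + Complex.I • h) * r with hC
  have hCu : C ∈ unitary 𝔄 := by
    rw [Unitary.mem_iff]
    constructor
    · rw [hC, star_mul, hst', mul_assoc, ← mul_assoc (1 - _), ← hpm.eq, mul_assoc, hr2, mul_one,
        hr4]
    · rw [hC, ← hrp.eq, star_mul, hst', mul_assoc, ← mul_assoc (1 + _), hpm.eq, mul_assoc, hr3,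
        mul_one, hr1]
  have hC1 : C + 1 = (2 : ℂ) • r := by
    calc C + 1 = (1 + Complex.I • h) * r + (1 - Complex.I • h) * r := by rw [hr2]
      _ = ((2 : ℂ) • (1 : 𝔄)) * r := by rw [← add_mul]; congr 1; module
      _ = _ := by rw [smul_mul_assoc, one_mul]
  have hrn : ‖r‖ ≤ 1 := by
    have h1 : ‖C + 1‖ ≤ 2 :=
      (norm_add_le _ _).trans (by
        have := norm_unitary_le hCu
        have := norm_unitary_le (one_mem (unitary 𝔄))
        linarith)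
    rw [hC1, norm_smul] at h1
    simp at h1
    linarith
  have hC2 : C - 1 = (2 * Complex.I) • (r * h) := by
    rw [hC, ← hr2, ← sub_mul, hr2, (hcr h (Commute.refl h)).eq, ← smul_mul_assoc]
    congr 1
    module
  have hC3 : C - Complex.I • (1 : 𝔄) = (Complex.I - 1) • (r * (h - 1)) := by
    rw [hC, ← hr2, ← smul_mul_assoc, ← sub_mul, hr2,
      (hcr (h - 1) ((Commute.refl h).sub_right (Commute.one_right h))).eq, ← smul_mul_assoc]
    congr 1
    rw [smul_sub, smul_smul, Complex.I_mul_I]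
    module
  refine ⟨C * C, mul_mem hCu hCu, fun x hx => ?_, fun σ ξ => ⟨?_, ?_⟩⟩
  · have : Commute C x := ((Commute.one_left x).add_left (hx.smul_left _)).mul_left (hcr x hx)
    exact this.mul_left this
  · have e1 : C * C - 1 = (C + 1) * (C - 1) := by noncomm_ring
    have e2 : σ (C * C) ξ - ξ = σ (C * C - 1) ξ := by simp
    rw [e2, e1, rep_mul, hC2, hC1, map_smul, map_smul]
    simp only [ContinuousLinearMap.smul_apply, norm_smul, map_smul]
    have h1 := norm_rep_le' σ hrn (σ (r * h) ξ)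
    have h2 : ‖σ (r * h) ξ‖ ≤ ‖σ h ξ‖ := by rw [rep_mul]; exact norm_rep_le' σ hrn _
    simp only [Complex.norm_ofNat, norm_mul, Complex.norm_I, mul_one]
    linarith
  · have e1 : C * C + 1 = (C + Complex.I • 1) * (C - Complex.I • 1) := by
      simp only [add_mul, mul_sub, smul_mul_assoc, mul_smul_comm, one_mul, mul_one, smul_add,
        smul_smul, Complex.I_mul_I]
      module
    have e2 : σ (C * C) ξ + ξ = σ (C * C + 1) ξ := by simp
    rw [e2, e1, rep_mul, hC3, map_smul]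
    have h0 : ‖C + Complex.I • (1 : 𝔄)‖ ≤ 2 :=
      (norm_add_le _ _).trans (by
        have := norm_unitary_le hCu
        have := norm_unitary_le (one_mem (unitary 𝔄))
        rw [norm_smul, Complex.norm_I]
        linarith)
    have h1 := norm_rep_le σ (C + Complex.I • (1 : 𝔄)) (((Complex.I - 1) • σ (r * (h - 1))) ξ)
    have h2 : ‖σ (r * (h - 1)) ξ‖ ≤ ‖σ h ξ - ξ‖ := by
      rw [rep_mul]
      refine (norm_rep_le' σ hrn _).trans (le_of_eq ?_)
      simp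
    have h3 : ‖Complex.I - 1‖ ≤ 2 := (norm_sub_le _ _).trans (by simp; norm_num)
    rw [ContinuousLinearMap.smul_apply, norm_smul] at h1
    refine h1.trans ?_
    calc _ ≤ 2 * (2 * ‖σ h ξ - ξ‖) := by gcongr
      _ = _ := by ring

variable {𝔭 : Pauli 𝔄} {σ : 𝔄 →⋆ₐ[ℂ] (K →L[ℂ] K)}

theorem exists_fixed {ξ : K} (hξ : ξ ≠ 0) (n : ℕ) :
    ∃ ζ : K, ‖ζ‖ = 1 ∧ σ (𝔭.P n) ζ = ζ := by
  have : ∃ x, σ (𝔭.P n) x ≠ 0 := by
    by_contra hc
    push Not at hc
    apply hξ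
    have : ξ = σ (∑ a ∈ Γf n, 𝔭.X a * 𝔭.P n * 𝔭.X a) ξ := by
      rw [𝔭.resolution, map_one]; rfl
    rw [this, map_sum, ContinuousLinearMap.sum_apply]
    refine Finset.sum_eq_zero fun a _ => ?_
    rw [rep_mul, rep_mul, hc, map_zero]
  obtain ⟨x, hx⟩ := this
  refine ⟨((‖σ (𝔭.P n) x‖ : ℂ))⁻¹ • σ (𝔭.P n) x, norm_smul_inv_norm hx, ?_⟩
  rw [map_smul, ← rep_mul, 𝔭.P_mul_self]

theorem inner_X_X {k : ℕ} {α β : K} (hα : σ (𝔭.P k) α = α) (hβ : σ (𝔭.P k) β = β) {a b : Γ}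
    (ha : Lev k a) (hb : Lev k b) (hab : a ≠ b) : ⟪σ (𝔭.X a) α, σ (𝔭.X b) β⟫_ℂ = 0 := by
  rw [← hα, ← hβ, ← rep_mul, rep_inner, ← rep_mul, ← rep_mul, star_mul, 𝔭.star_P, 𝔭.star_X,
    mul_assoc (𝔭.P k), Pauli.P_X_X_P ha hb hab]
  simp

theorem inner_X_X_self (α β : K) (a : Γ) : ⟪σ (𝔭.X a) α, σ (𝔭.X a) β⟫_ℂ = ⟪α, β⟫_ℂ := by
  rw [rep_inner, ← rep_mul, 𝔭.star_X, 𝔭.X_mul_self, map_one]; rfl

theorem e_inj {i j : ℕ} (h : e i = e j) : i = j := by
  have := congrArg (fun a : Γ => a i) h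
  simp only [e_apply, if_pos] at this
  by_contra hc
  rw [if_neg (Ne.symm hc)] at this
  revert this; decide

theorem orthonormal_X {ζ : K} {n k N : ℕ} (h1 : ‖ζ‖ = 1) (h2 : σ (𝔭.P n) ζ = ζ)
    (hn : k + N ≤ n) : Orthonormal ℂ (fun j : Fin N => σ (𝔭.X (e (k + j))) ζ) := by
  constructor
  · intro j
    rw [rep_norm_unitary σ (𝔭.X_unitary _), h1]
  · intro i j hij
    refine inner_X_X h2 h2 (lev_e (by omega)) (lev_e (by omega)) fun h => hij ?_
    have := e_inj h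
    ext; omega

theorem exists_fixed_orth {ξ : K} (hξ : ξ ≠ 0) (n : ℕ) {ι : Type*} [Fintype ι] (w : ι → K) :
    ∃ ζ : K, ‖ζ‖ = 1 ∧ σ (𝔭.P n) ζ = ζ ∧ ∀ i, ⟪w i, ζ⟫_ℂ = 0 := by
  set N := Fintype.card ι + 1
  obtain ⟨ζ, h1, h2⟩ := exists_fixed (𝔭 := 𝔭) (σ := σ) hξ (n + N)
  have ho := orthonormal_X (k := n) (N := N) h1 h2 le_rfl
  set f := fun j : Fin N => σ (𝔭.X (e (n + j))) ζ
  have hf : ∀ j, σ (𝔭.P n) (f j) = f j := by
    intro j
    have hc : Commute (𝔭.P n) (𝔭.X (e (n + j))) :=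
      𝔭.commute_P_X fun i hi => by rw [e_apply, if_neg (by omega)]
    simp only [f]
    rw [← rep_mul, hc.eq, rep_mul, ← h2, ← rep_mul σ (𝔭.P n), 𝔭.P_mul_P (by omega)]
  let L : (Fin N → ℂ) →ₗ[ℂ] (ι → ℂ) :=
    { toFun := fun c i => ⟪w i, ∑ j, c j • f j⟫_ℂ
      map_add' := by
        intro c d; funext i
        simp [add_smul, Finset.sum_add_distrib, inner_add_right]
      map_smul' := by
        intro t c; funext i
        simp [mul_smul, ← Finset.smul_sum, inner_smul_right] }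
  have hker : LinearMap.ker L ≠ ⊥ := L.ker_ne_bot_of_finrank_lt (by simp [N])
  obtain ⟨c, hc, hc0⟩ := Submodule.exists_mem_ne_zero_of_ne_bot hker
  have hne : ∑ j, c j • f j ≠ 0 := by
    intro h
    exact hc0 (funext (Fintype.linearIndependent_iff.1 ho.linearIndependent c h))
  refine ⟨((‖∑ j, c j • f j‖ : ℂ))⁻¹ • ∑ j, c j • f j, norm_smul_inv_norm hne, ?_, fun i => ?_⟩
  · rw [map_smul, map_sum]
    simp only [map_smul, hf]
  · have : L c i = 0 := by rw [LinearMap.mem_ker.1 hc]; rfl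
    rw [inner_smul_right]
    exact mul_eq_zero_of_right _ this

theorem inner_sum_X {k : ℕ} {α β : ↥(Γf k) → K} (hα : ∀ i, σ (𝔭.P k) (α i) = α i)
    (hβ : ∀ i, σ (𝔭.P k) (β i) = β i) :
    ⟪∑ i : ↥(Γf k), σ (𝔭.X i) (α i), ∑ i : ↥(Γf k), σ (𝔭.X i) (β i)⟫_ℂ = ∑ i, ⟪α i, β i⟫_ℂ := by
  rw [sum_inner]
  refine Finset.sum_congr rfl fun i _ => ?_
  rw [inner_sum, Finset.sum_eq_single i, inner_X_X_self]
  · intro j _ hj
    exact inner_X_X (hα i) (hβ j) (mem_Γf.1 i.2) (mem_Γf.1 j.2) fun h => hj (Subtype.ext h.symm)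
  · simp

/-- the analytic half of the step: a unitary commuting with level `k` moving `ζ'` near `ζ` -/
theorem exists_move (hσ : Irr σ) {k : ℕ} {α β : ↥(Γf k) → K}
    (hα : ∀ i, σ (𝔭.P k) (α i) = α i) (hβ : ∀ i, σ (𝔭.P k) (β i) = β i)
    (hG : ∀ i j, ⟪α i, α j⟫_ℂ = ⟪β i, β j⟫_ℂ) (hO : ∀ i j, ⟪α i, β j⟫_ℂ = 0)
    {ε : ℝ} (hε : 0 < ε) :
    ∃ z ∈ unitary 𝔄, (∀ x ∈ 𝔭.M k, Commute z x) ∧
      ‖σ z (∑ i : ↥(Γf k), σ (𝔭.X i) (β i)) - ∑ i : ↥(Γf k), σ (𝔭.X i) (α i)‖ < ε := by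
  classical
  let E : Submodule ℂ K := Submodule.span ℂ (Set.range fun i => α i - β i)
  haveI : FiniteDimensional ℂ E := FiniteDimensional.span_of_finite ℂ (Set.finite_range _)
  haveI : CompleteSpace E := FiniteDimensional.complete ℂ E
  let T := E.starProjection
  have hT1 : ∀ i, T (α i - β i) = α i - β i := fun i =>
    Submodule.starProjection_eq_self_iff.2 (Submodule.subset_span ⟨i, rfl⟩)
  have hT2 : ∀ i, T (α i + β i) = 0 := by
    intro i
    refine (Submodule.starProjection_apply_eq_zero_iff _).2 ?_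
    intro u hu
    induction hu using Submodule.span_induction with
    | mem u hu =>
      obtain ⟨j, rfl⟩ := hu
      have : ⟪β j, α i⟫_ℂ = 0 := by rw [← inner_conj_symm, hO, map_zero]
      simp only [inner_sub_left, inner_add_right, hG, hO, this]
      ring
    | zero => simp
    | add u u' _ _ h1 h2 => rw [inner_add_left, h1, h2, add_zero]
    | smul c u _ h1 => rw [inner_smul_left, h1, mul_zero]
  set N : ℝ := (Fintype.card ↥(Γf k) : ℝ)
  have hN : 0 ≤ N := Nat.cast_nonneg _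
  set δ := ε / (4 * (N + 1))
  have hδ : 0 < δ := by positivity
  obtain ⟨h, hh, hh'⟩ := hσ.trans_sa
    (Sum.elim (fun i => α i + β i) (fun i => α i - β i) : ↥(Γf k) ⊕ ↥(Γf k) → K)
    (isSelfAdjoint_starProjection E) hδ
  obtain ⟨z, hz, hz1, hz2⟩ := exists_cayley (K := K) (h := 𝔭.amp k h) (Pauli.star_amp k hh)
  refine ⟨z, hz, fun x hx => hz1 x (Pauli.commute_amp h hx), ?_⟩
  have hamp : ∀ (i : ↥(Γf k)) (x : K), σ (𝔭.P k) x = x →
      σ (𝔭.amp k h) (σ (𝔭.X i) x) = σ (𝔭.X i) (σ (𝔭.P k) (σ h x)) := by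
    intro i x hx
    conv_lhs => rw [← hx, ← rep_mul, ← rep_mul, mul_assoc, Pauli.amp_X_P h (mem_Γf.1 i.2),
      rep_mul, rep_mul, rep_mul, hx]
  set A := ∑ i : ↥(Γf k), σ (𝔭.X i) (α i)
  set B := ∑ i : ↥(Γf k), σ (𝔭.X i) (β i)
  have h1 : ‖σ (𝔭.amp k h) (A + B)‖ ≤ N * δ := by
    have : σ (𝔭.amp k h) (A + B) =
        ∑ i : ↥(Γf k), σ (𝔭.X i) (σ (𝔭.P k) (σ h (α i + β i))) := by
      simp only [A, B]
      rw [← Finset.sum_add_distrib, map_sum]
      refine Finset.sum_congr rfl fun i _ => ?_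
      rw [← map_add, hamp i _ (by rw [map_add, hα, hβ])]
    rw [this]
    refine (norm_sum_le _ _).trans ?_
    refine (Finset.sum_le_card_nsmul _ _ δ fun i _ => ?_).trans (by simp [N])
    rw [rep_norm_unitary σ (𝔭.X_unitary _)]
    refine (norm_rep_le' σ (𝔭.norm_P_le k) _).trans ?_
    have := hh' (Sum.inl i)
    simp only [Sum.elim_inl] at this
    rw [show E.starProjection (α i + β i) = 0 from hT2 i, sub_zero] at this
    exact this.le
  have h2 : ‖σ (𝔭.amp k h) (A - B) - (A - B)‖ ≤ N * δ := by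
    have : σ (𝔭.amp k h) (A - B) - (A - B) =
        ∑ i : ↥(Γf k), σ (𝔭.X i) (σ (𝔭.P k) (σ h (α i - β i) - (α i - β i))) := by
      simp only [A, B]
      rw [← Finset.sum_sub_distrib, map_sum, ← Finset.sum_sub_distrib]
      refine Finset.sum_congr rfl fun i _ => ?_
      have e1 : σ (𝔭.P k) (α i - β i) = α i - β i := by rw [map_sub, hα, hβ]
      rw [← map_sub, hamp i _ e1, ← map_sub, map_sub (σ (𝔭.P k)) (σ h _), e1]
    rw [this]
    refine (norm_sum_le _ _).trans ?_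
    refine (Finset.sum_le_card_nsmul _ _ δ fun i _ => ?_).trans (by simp [N])
    rw [rep_norm_unitary σ (𝔭.X_unitary _)]
    refine (norm_rep_le' σ (𝔭.norm_P_le k) _).trans ?_
    have := hh' (Sum.inr i)
    simp only [Sum.elim_inr] at this
    rw [show E.starProjection (α i - β i) = α i - β i from hT1 i] at this
    exact this.le
  have h3 := (hz2 σ (A + B)).1
  have h4 := (hz2 σ (A - B)).2
  have h5 : (2 : ℂ) • (σ z B - A) = (σ z (A + B) - (A + B)) - (σ z (A - B) + (A - B)) := by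
    rw [map_add, map_sub]
    module
  have h6 : 2 * ‖σ z B - A‖ ≤ 8 * (N * δ) := by
    have := norm_sub_le (σ z (A + B) - (A + B)) (σ z (A - B) + (A - B))
    rw [← h5, norm_smul] at this
    simp only [Complex.norm_ofNat] at this
    linarith
  have h7 : 4 * (N * δ) < ε := by
    have : 4 * (N + 1) * δ = ε := by simp only [δ]; field_simp
    nlinarith
  linarith

theorem exists_step (hσ : Irr σ) {m k : ℕ} (hmk : m ≤ k) {ζ : K} (hζ1 : ‖ζ‖ = 1)
    (hζ2 : σ (𝔭.P m) ζ = ζ) {ε : ℝ} (hε : 0 < ε) :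
    ∃ z ∈ unitary 𝔄, ∃ m', k ≤ m' ∧ ∃ ζ' : K, ‖ζ'‖ = 1 ∧ σ (𝔭.P m') ζ' = ζ' ∧
      z * (1 - 𝔭.P m) = 1 - 𝔭.P m ∧ ‖σ z ζ' - ζ‖ < ε ∧
      ∀ x ∈ 𝔭.M k, ∃ c : ℂ, 𝔭.P m' * (star z * x * z) * 𝔭.P m' = c • 𝔭.P m' := by
  classical
  have hζ0 : ζ ≠ 0 := by rintro rfl; simp at hζ1
  let α : ↥(Γf k) → K := fun i => σ (𝔭.P k * 𝔭.X i) ζ
  have hα : ∀ i, σ (𝔭.P k) (α i) = α i := by
    intro i
    simp only [α]
    rw [← rep_mul, ← mul_assoc, 𝔭.P_mul_self]
  have hA : ∑ i : ↥(Γf k), σ (𝔭.X i) (α i) = ζ := by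
    have : ζ = σ (∑ a ∈ Γf k, 𝔭.X a * 𝔭.P k * 𝔭.X a) ζ := by
      rw [𝔭.resolution, map_one]; rfl
    conv_rhs => rw [this, map_sum, ContinuousLinearMap.sum_apply, ← Finset.sum_coe_sort]
    refine Finset.sum_congr rfl fun i _ => ?_
    simp only [α]
    rw [← rep_mul, mul_assoc]
  let E : Submodule ℂ K := Submodule.span ℂ (Set.range α)
  haveI : FiniteDimensional ℂ E := FiniteDimensional.span_of_finite ℂ (Set.finite_range _)
  set d := Module.finrank ℂ E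
  let b := stdOrthonormalBasis ℂ E
  let αE : ↥(Γf k) → E := fun i => ⟨α i, Submodule.subset_span ⟨i, rfl⟩⟩
  let c : ↥(Γf k) → Fin d → ℂ := fun i j => ⟪b j, αE i⟫_ℂ
  set k' := k + d
  obtain ⟨ζ', h1, h2, h3⟩ := exists_fixed_orth (𝔭 := 𝔭) (σ := σ) hζ0 k'
    (fun p : Fin d × ↥(Γf k) => σ (𝔭.X (e (k + p.1))) (α p.2))
  have ho := orthonormal_X (k := k) (N := d) h1 h2 le_rfl
  set f := fun j : Fin d => σ (𝔭.X (e (k + j))) ζ'
  have hcm : ∀ (l : ℕ) (j : Fin d), l ≤ k → Commute (𝔭.P l) (𝔭.X (e (k + j))) := fun l j hl =>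
    𝔭.commute_P_X fun i hi => by rw [e_apply, if_neg (by omega)]
  let β : ↥(Γf k) → K := fun i => ∑ j, c i j • f j
  have hβ : ∀ i, σ (𝔭.P k) (β i) = β i := by
    intro i
    simp only [β, map_sum, map_smul, f]
    refine Finset.sum_congr rfl fun j _ => ?_
    rw [← rep_mul, (hcm k j le_rfl).eq, rep_mul, ← h2, ← rep_mul σ (𝔭.P k),
      𝔭.P_mul_P (by omega)]
  have hG : ∀ i j, ⟪α i, α j⟫_ℂ = ⟪β i, β j⟫_ℂ := by
    intro i j
    have e1 : ⟪α i, α j⟫_ℂ = ⟪αE i, αE j⟫_ℂ := rfl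
    rw [e1, ← b.sum_inner_mul_inner]
    simp only [β]
    rw [ho.inner_sum]
    refine Finset.sum_congr rfl fun l _ => ?_
    simp only [c, inner_conj_symm]
  have hO : ∀ i j, ⟪α i, β j⟫_ℂ = 0 := by
    intro i j
    simp only [β, inner_sum, inner_smul_right, f]
    refine Finset.sum_eq_zero fun l _ => ?_
    have := h3 (l, i)
    rw [rep_inner, 𝔭.star_X] at this
    rw [this, mul_zero]
  obtain ⟨z₁, hz₁, hz₁c, hz₁n⟩ := exists_move hσ hα hβ hG hO hε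
  rw [hA] at hz₁n
  let y : 𝔄 := ∑ i : ↥(Γf k), ∑ j, c i j • (𝔭.X i * 𝔭.X (e (k + j)) * 𝔭.P k')
  have hyζ : σ y ζ' = ∑ i : ↥(Γf k), σ (𝔭.X i) (β i) := by
    simp only [y, β, map_sum, map_smul, ContinuousLinearMap.sum_apply,
      ContinuousLinearMap.smul_apply, rep_mul, h2, f]
  have hyM : y ∈ 𝔭.M k' := by
    refine Submodule.sum_mem _ fun i _ => Submodule.sum_mem _ fun j _ => Submodule.smul_mem _ _ ?_
    exact Pauli.mul_mem_M (Pauli.mul_mem_M (Pauli.X_mem ((mem_Γf.1 i.2).mono (by omega)))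
      (Pauli.X_mem (lev_e (by omega)))) (Pauli.P_mem le_rfl)
  have hyP : y * 𝔭.P k' = y := by
    simp only [y, Finset.sum_mul, smul_mul_assoc, mul_assoc, 𝔭.P_mul_self]
  have hPy : 𝔭.P k' * y = 0 := by
    simp only [y, Finset.mul_sum, mul_smul_comm]
    refine Finset.sum_eq_zero fun i _ => Finset.sum_eq_zero fun j _ => ?_
    rw [← 𝔭.X_add, ← mul_assoc, 𝔭.P_X_P (i := k + j) (by omega) (by omega), smul_zero]
    rw [Finsupp.add_apply, (mem_Γf.1 i.2) _ (by omega), e_apply, if_pos rfl]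
    decide
  have hPmy : 𝔭.P m * y = y := by
    simp only [y, Finset.mul_sum, mul_smul_comm]
    refine Finset.sum_congr rfl fun i _ => Finset.sum_congr rfl fun j _ => ?_
    by_cases hi : ∀ l < m, (i : Γ) l = 0
    · rw [← mul_assoc, ← mul_assoc, (𝔭.commute_P_X hi).eq, mul_assoc (𝔭.X i), (hcm m j hmk).eq,
        mul_assoc, mul_assoc, 𝔭.P_mul_P (by omega), mul_assoc]
    · push Not at hi
      obtain ⟨l, hl, hl'⟩ := hi
      have : αE i = 0 := by
        ext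
        simp only [αE, α]
        rw [← hζ2, ← rep_mul, 𝔭.P_X_P (i := l) (by omega) hl hl']
        simp
      simp only [c, this, inner_zero_right, zero_smul]
  have hPys : 𝔭.P k' * star y = star y := by
    have := congrArg star hyP
    rwa [star_mul, 𝔭.star_P] at this
  have hyy : star y * y = 𝔭.P k' := by
    obtain ⟨t, ht⟩ := Pauli.P_M_P (Pauli.mul_mem_M (Pauli.star_mem_M hyM) hyM)
    rw [← mul_assoc, hPys, mul_assoc, hyP] at ht
    have e1 : ⟪σ y ζ', σ y ζ'⟫_ℂ = t := by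
      rw [rep_inner, ← rep_mul, ht, map_smul, ContinuousLinearMap.smul_apply, h2,
        inner_smul_right, inner_self_eq_norm_sq_to_K, h1]
      simp
    have e2 : ⟪σ y ζ', σ y ζ'⟫_ℂ = 1 := by
      rw [hyζ, inner_sum_X hβ hβ, ← Finset.sum_congr rfl fun i _ => hG i i,
        ← inner_sum_X hα hα, hA, inner_self_eq_norm_sq_to_K, hζ1]
      simp
    rw [ht, ← e1, e2, one_smul]
  have hysP : star y * 𝔭.P k' = 0 := by
    have := congrArg star hPy
    rwa [star_mul, 𝔭.star_P, star_zero] at this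
  set s := 𝔭.P k' - y with hs
  have hss : star s * s = (2 : ℂ) • 𝔭.P k' := by
    rw [hs, star_sub, 𝔭.star_P, sub_mul, mul_sub, mul_sub, 𝔭.P_mul_self, hPy, hysP, hyy]
    module
  have hsP : s * 𝔭.P k' = s := by rw [hs, sub_mul, 𝔭.P_mul_self, hyP]
  have hssP : star s * 𝔭.P k' = 𝔭.P k' := by
    rw [hs, star_sub, 𝔭.star_P, sub_mul, 𝔭.P_mul_self, hysP, sub_zero]
  set z₂ := 1 - s * star s with hz₂
  have hz₂s : star z₂ = z₂ := by simp [hz₂]
  have hz₂2 : z₂ * z₂ = 1 := by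
    have : s * star s * (s * star s) = (2 : ℂ) • (s * star s) := by
      rw [mul_assoc, ← mul_assoc (star s), hss, smul_mul_assoc, mul_smul_comm, ← mul_assoc, hsP]
    rw [hz₂, sub_mul, mul_sub, mul_sub, this]
    simp only [one_mul, mul_one]
    module
  have hz₂u : z₂ ∈ unitary 𝔄 := by
    rw [Unitary.mem_iff, hz₂s]; exact ⟨hz₂2, hz₂2⟩
  have hz₂P : z₂ * 𝔭.P k' = y := by
    rw [hz₂, sub_mul, one_mul, mul_assoc, hssP, hsP, hs]
    abel
  have hz₂m : z₂ * (1 - 𝔭.P m) = 1 - 𝔭.P m := by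
    have e1 : 𝔭.P m * s = s := by rw [hs, mul_sub, hPmy, 𝔭.P_mul_P (by omega)]
    have e2 : star s * 𝔭.P m = star s := by
      have := congrArg star e1
      rwa [star_mul, 𝔭.star_P] at this
    rw [hz₂, sub_mul, one_mul, mul_assoc, mul_sub (star s), e2]
    simp
  have hc : Commute z₁ (𝔭.P m) := hz₁c _ (Pauli.P_mem hmk)
  set z₃ := z₁ * 𝔭.P m + (1 - 𝔭.P m) with hz₃
  have hPP := 𝔭.P_mul_self m
  have hz₃u : z₃ ∈ unitary 𝔄 := by
    have e0 : star z₃ = 𝔭.P m * star z₁ + (1 - 𝔭.P m) := by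
      simp [hz₃, 𝔭.star_P]
    have e1 : 𝔭.P m * (1 - 𝔭.P m) = 0 := by rw [mul_sub, hPP]; simp
    have e2 : (1 - 𝔭.P m) * 𝔭.P m = 0 := by rw [sub_mul, hPP]; simp
    have e3 : (1 - 𝔭.P m) * (1 - 𝔭.P m) = 1 - 𝔭.P m := by rw [mul_sub, e2]; simp
    have hc' : Commute (star z₁) (𝔭.P m) := by
      have := hc.star_star
      rwa [𝔭.star_P] at this
    rw [Unitary.mem_iff, e0]
    constructor
    · rw [hz₃, add_mul, mul_add, mul_add, e3, mul_assoc, ← mul_assoc (star z₁),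
        Unitary.star_mul_self_of_mem hz₁, one_mul, hPP, ← hc'.eq, mul_assoc, e1, hc.eq,
        ← mul_assoc (1 - 𝔭.P m), e2]
      simp
    · rw [hz₃, add_mul, mul_add, mul_add, e3, mul_assoc z₁, ← mul_assoc (𝔭.P m), hPP,
        ← hc'.eq, ← mul_assoc z₁, Unitary.mul_star_self_of_mem hz₁, mul_assoc z₁, e1,
        hc'.eq, ← mul_assoc (1 - 𝔭.P m), e2]
      simp
  have hz₃y : z₃ * y = z₁ * y := by
    rw [hz₃, add_mul, mul_assoc, hPmy, sub_mul, hPmy]; simp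
  have hzP : z₃ * z₂ * 𝔭.P k' = z₁ * y := by rw [mul_assoc, hz₂P, hz₃y]
  refine ⟨z₃ * z₂, mul_mem hz₃u hz₂u, k', by omega, ζ', h1, h2, ?_, ?_, fun x hx => ?_⟩
  · rw [mul_assoc, hz₂m, hz₃, add_mul, mul_assoc, mul_sub (𝔭.P m), hPP, sub_mul, mul_sub (𝔭.P m),
      hPP]
    simp
  · rw [← h2, ← rep_mul, hzP, rep_mul, hyζ]
    exact hz₁n
  · have e1 : 𝔭.P k' * star (z₃ * z₂) = star y * star z₁ := by
      have := congrArg star hzP
      rwa [star_mul, 𝔭.star_P, star_mul z₁] at this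
    obtain ⟨t, ht⟩ := Pauli.P_M_P (Pauli.mul_mem_M (Pauli.mul_mem_M (Pauli.star_mem_M hyM)
      (Pauli.M_mono (show k ≤ k' by omega) hx)) hyM)
    refine ⟨t, ?_⟩
    calc 𝔭.P k' * (star (z₃ * z₂) * x * (z₃ * z₂)) * 𝔭.P k'
        = (𝔭.P k' * star (z₃ * z₂)) * x * (z₃ * z₂ * 𝔭.P k') := by simp only [mul_assoc]
      _ = star y * (star z₁ * (x * z₁)) * y := by rw [e1, hzP]; simp only [mul_assoc]
      _ = star y * x * y := by
        rw [← (hz₁c x hx).eq, ← mul_assoc (star z₁), Unitary.star_mul_self_of_mem hz₁, one_mul]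
      _ = (𝔭.P k' * star y) * x * (y * 𝔭.P k') := by rw [hPys, hyP]
      _ = _ := by rw [← ht]; simp only [mul_assoc]

end

end Crest.Agent.R120
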