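import Mathlib

/-! Schur's lemma and approximate transitivity for irreducible representations. -/

set_option autoImplicit false
set_option linter.unusedSectionVars false
set_option linter.unusedVariables false

namespace Crest.Agent.R120

open scoped InnerProductSpace ComplexConjugate
open Finset

noncomputable section

variable {𝔄 : Type*} [Ring 𝔄] [StarRing 𝔄] [Algebra ℂ 𝔄] [StarModule ℂ 𝔄]
variable {K : Type*} [NormedAddCommGroup K] [InnerProductSpace ℂ K] [CompleteSpace K]

/-- topological irreducibility of a unital representation -/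
def Irr (σ : 𝔄 →⋆ₐ[ℂ] (K →L[ℂ] K)) : Prop :=
  ∀ V : Submodule ℂ K, IsClosed (V : Set K) → (∀ a, ∀ v ∈ V, σ a v ∈ V) → V = ⊥ ∨ V = ⊤

theorem Irr.mul_eq_zero {σ : 𝔄 →⋆ₐ[ℂ] (K →L[ℂ] K)} (h : Irr σ) {S T : K →L[ℂ] K}
    (hS : ∀ a, Commute S (σ a)) (hST : S * T = 0) : S = 0 ∨ T = 0 := by
  rcases h (LinearMap.ker (S : K →ₗ[ℂ] K)) (ContinuousLinearMap.isClosed_ker S) (by
    intro a v hv
    have hv' : S v = 0 := hv
    show S (σ a v) = 0
    have := congrArg (fun U : K →L[ℂ] K => U v) (hS a).eq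
    simp only [ContinuousLinearMap.mul_apply] at this
    rw [this, hv', map_zero]) with h0 | h0
  · right
    ext v
    have : T v ∈ LinearMap.ker (S : K →ₗ[ℂ] K) := by
      show S (T v) = 0
      have := congrArg (fun U : K →L[ℂ] K => U v) hST
      simpa using this
    rw [h0] at this
    simpa using this
  · left
    ext v
    have : v ∈ LinearMap.ker (S : K →ₗ[ℂ] K) := by rw [h0]; trivial
    simpa using this

theorem Irr.schur_sa {σ : 𝔄 →⋆ₐ[ℂ] (K →L[ℂ] K)} (h : Irr σ) {S : K →L[ℂ] K}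
    (hsa : IsSelfAdjoint S) (hS : ∀ a, Commute S (σ a)) : ∃ c : ℂ, S = c • 1 := by
  by_cases hsub : ∀ x ∈ spectrum ℝ S, ∀ y ∈ spectrum ℝ S, x = y
  · rcases (spectrum ℝ S).eq_empty_or_nonempty with he | ⟨x, hx⟩
    · refine ⟨0, ?_⟩
      have : cfc (fun t : ℝ => t) S = cfc (fun _ : ℝ => (0 : ℝ)) S :=
        cfc_congr (by rw [he]; intro t ht; exact absurd ht (Set.notMem_empty _))
      rw [cfc_id' ℝ S, cfc_const_zero] at this
      simp [this]
    · refine ⟨x, ?_⟩
      have : cfc (fun t : ℝ => t) S = cfc (fun _ : ℝ => x) S :=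
        cfc_congr (fun t ht => hsub t ht x hx)
      rw [cfc_id' ℝ S, cfc_const x S] at this
      rw [this, Algebra.algebraMap_eq_smul_one]
      rfl
  · exfalso
    push Not at hsub
    obtain ⟨x, hx, y, hy, hxy⟩ := hsub
    wlog hlt : x < y generalizing x y
    · exact this y hy x hx hxy.symm (lt_of_le_of_ne (not_lt.1 hlt) hxy.symm)
    set m := (x + y) / 2
    let f : ℝ → ℝ := fun t => max (m - t) 0
    let g : ℝ → ℝ := fun t => max (t - m) 0
    have hf : Continuous f := by fun_prop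
    have hg : Continuous g := by fun_prop
    have hfg : cfc f S * cfc g S = 0 := by
      rw [← cfc_mul f g S]
      have : (fun t => f t * g t) = fun _ => (0 : ℝ) := by
        funext t
        simp only [f, g]
        rcases le_total t m with h1 | h1
        · rw [max_eq_right (by linarith : t - m ≤ 0), mul_zero]
        · rw [max_eq_right (by linarith : m - t ≤ 0), zero_mul]
      rw [this, cfc_const_zero]
    have key : ∀ (u : ℝ → ℝ), Continuous u → ∀ z ∈ spectrum ℝ S, u z ≠ 0 → cfc u S ≠ 0 := by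
      intro u hu z hz hne h0
      have := norm_apply_le_norm_cfc u S hz
      rw [h0, norm_zero] at this
      exact hne (norm_le_zero_iff.1 this)
    rcases h.mul_eq_zero (fun a => (hS a).cfc_real f) hfg with h0 | h0
    · refine key f hf x hx ?_ h0
      have : 0 < m - x := by simp only [m]; linarith
      exact (lt_max_of_lt_left this).ne'
    · refine key g hg y hy ?_ h0
      have : 0 < y - m := by simp only [m]; linarith
      exact (lt_max_of_lt_left this).ne'

theorem Irr.schur {σ : 𝔄 →⋆ₐ[ℂ] (K →L[ℂ] K)} (h : Irr σ) {S : K →L[ℂ] K}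
    (hS : ∀ a, Commute S (σ a)) : ∃ c : ℂ, S = c • 1 := by
  have hS' : ∀ a, Commute (star S) (σ a) := by
    intro a
    have := (hS (star a)).star_star
    rwa [map_star, star_star] at this
  obtain ⟨c, hc⟩ := h.schur_sa (S := S + star S) (by simp [IsSelfAdjoint, add_comm])
    (fun a => (hS a).add_left (hS' a))
  obtain ⟨d, hd⟩ := h.schur_sa (S := Complex.I • (S - star S))
    (by simp [IsSelfAdjoint, star_smul, ← smul_neg])
    (fun a => ((hS a).sub_left (hS' a)).smul_left _)
  refine ⟨(c - Complex.I * d) / 2, ?_⟩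
  have h2 : (S - star S) = (-Complex.I * d) • (1 : K →L[ℂ] K) := by
    rw [mul_smul, ← hd, smul_smul]
    simp
  have h3 : S = (1 / 2 : ℂ) • ((S + star S) + (S - star S)) := by
    rw [show (S + star S) + (S - star S) = (2 : ℂ) • S by rw [two_smul]; abel, smul_smul]
    simp
  rw [h3, hc, h2, ← add_smul, smul_smul]
  congr 1
  ring

/-- finite Hilbert sum -/
abbrev XX (ι K : Type*) := PiLp 2 (fun _ : ι => K)

/-- functional form of the bicommutant theorem -/
theorem Irr.dens {σ : 𝔄 →⋆ₐ[ℂ] (K →L[ℂ] K)} (h : Irr σ) {ι : Type*} [Fintype ι]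
    (v w : ι → K) (h0 : ∀ a, ∑ i, ⟪w i, σ a (v i)⟫_ℂ = 0) (T : K →L[ℂ] K) :
    ∑ i, ⟪w i, T (v i)⟫_ℂ = 0 := by
  classical
  let D : (K →L[ℂ] K) → (XX ι K) → (XX ι K) := fun S x => WithLp.toLp 2 (fun i => S (x i))
  have hD : ∀ S x y, ⟪D S x, y⟫_ℂ = ⟪x, D (star S) y⟫_ℂ := by
    intro S x y
    simp only [D, PiLp.inner_apply, ContinuousLinearMap.star_eq_adjoint,
      ContinuousLinearMap.adjoint_inner_right]
  let V : (XX ι K) := WithLp.toLp 2 v
  let W : (XX ι K) := WithLp.toLp 2 w
  let L : Submodule ℂ (XX ι K) := Submodule.span ℂ (Set.range fun a => D (σ a) V)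
  let M : Submodule ℂ (XX ι K) := Lᗮ
  have memM : ∀ x, x ∈ M ↔ ∀ a, ⟪D (σ a) V, x⟫_ℂ = 0 := by
    intro x
    constructor
    · intro hx a
      exact hx _ (Submodule.subset_span ⟨a, rfl⟩)
    · intro hx u hu
      induction hu using Submodule.span_induction with
      | mem u hu => obtain ⟨a, rfl⟩ := hu; exact hx a
      | zero => simp
      | add u u' _ _ h1 h2 => rw [inner_add_left, h1, h2, add_zero]
      | smul c u _ h1 => rw [inner_smul_left, h1, mul_zero]
  have hM : ∀ a x, x ∈ M → D (σ a) x ∈ M := by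
    intro a x hx
    rw [memM] at hx ⊢
    intro b
    have e1 : ⟪D (σ b) V, D (σ a) x⟫_ℂ = ⟪D (σ (star a)) (D (σ b) V), x⟫_ℂ := by
      rw [hD (σ (star a)), map_star, star_star]
    have e2 : D (σ (star a)) (D (σ b) V) = D (σ (star a * b)) V := by
      simp only [D, map_mul, ContinuousLinearMap.mul_apply]
    rw [e1, e2, hx]
  have hMo : ∀ a x, x ∈ Mᗮ → D (σ a) x ∈ Mᗮ := by
    intro a x hx u hu
    rw [← inner_conj_symm, hD, ← map_star, inner_conj_symm]
    exact hx _ (hM _ _ hu)
  let Pr := M.starProjection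
  have hDadd : ∀ S x y, D S (x + y) = D S x + D S y := by
    intro S x y
    ext i
    simp [D]
  have hcomm : ∀ a x, Pr (D (σ a) x) = D (σ a) (Pr x) := by
    intro a x
    refine Submodule.eq_starProjection_of_mem_orthogonal' (hM a _ (M.starProjection_apply_mem x))
      (hMo a _ (M.sub_starProjection_mem_orthogonal x)) ?_
    rw [← hDadd]
    congr 1
    simp [Pr]
  let sing : ι → K →L[ℂ] (XX ι K) := fun j =>
    (PiLp.continuousLinearEquiv 2 ℂ (fun _ : ι => K)).symm.toContinuousLinearMap ∘L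
      ContinuousLinearMap.single ℂ (fun _ : ι => K) j
  let E : ι → ι → K →L[ℂ] K := fun i j => (PiLp.proj 2 (fun _ : ι => K) i) ∘L Pr ∘L sing j
  have hE : ∀ i j a, Commute (E i j) (σ a) := by
    intro i j a
    ext x
    have e1 : sing j (σ a x) = D (σ a) (sing j x) := by
      ext l
      by_cases hl : l = j
      · subst hl; simp [sing, D]
      · simp [sing, D, hl]
    simp only [E, ContinuousLinearMap.mul_apply, ContinuousLinearMap.comp_apply, e1, hcomm]
    simp [D]
  choose c hc using fun i j => h.schur (hE i j)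
  have hPr : ∀ x : (XX ι K), ∀ i, (Pr x) i = ∑ j, c i j • x j := by
    intro x i
    have e1 : x = ∑ j, sing j (x j) := by
      ext l
      simp [sing, Finset.sum_apply, Pi.single_apply]
    conv_lhs => rw [e1, map_sum]
    rw [WithLp.ofLp_sum, Finset.sum_apply]
    refine Finset.sum_congr rfl fun j _ => ?_
    have := congrArg (fun U : K →L[ℂ] K => U (x j)) (hc i j)
    simpa [E] using this
  have hV : Pr V = 0 := by
    have : V ∈ Mᗮ := by
      apply L.le_orthogonal_orthogonal
      refine Submodule.subset_span ⟨1, ?_⟩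
      simp [D, V]
    exact (Submodule.starProjection_apply_eq_zero_iff _).2 this
  have hTV : Pr (D T V) = 0 := by
    ext i
    have e1 := hPr V i
    rw [hV] at e1
    rw [hPr]
    have : ∑ j, c i j • (D T V) j = T (∑ j, c i j • V j) := by
      simp [D, map_sum]
    rw [this, ← e1]
    simp
  have hW : W ∈ M := by
    rw [memM]
    intro a
    rw [← inner_conj_symm]
    have : ⟪W, D (σ a) V⟫_ℂ = 0 := by
      simpa [W, D, V, PiLp.inner_apply] using h0 a
    rw [this, map_zero]
  have hTV' : D T V ∈ Mᗮ := (Submodule.starProjection_apply_eq_zero_iff _).1 hTV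
  have := hTV' W hW
  simpa [W, D, V, PiLp.inner_apply] using this

/-- self-adjoint approximate transitivity -/
theorem Irr.trans_sa {σ : 𝔄 →⋆ₐ[ℂ] (K →L[ℂ] K)} (h : Irr σ) {ι : Type*} [Fintype ι]
    (v : ι → K) {T : K →L[ℂ] K} (hT : IsSelfAdjoint T) {ε : ℝ} (hε : 0 < ε) :
    ∃ a : 𝔄, IsSelfAdjoint a ∧ ∀ i, ‖σ a (v i) - T (v i)‖ < ε := by
  classical
  let Φ : selfAdjoint 𝔄 → (XX ι K) := fun a => WithLp.toLp 2 (fun i => σ a (v i))
  let Y : (XX ι K) := WithLp.toLp 2 (fun i => T (v i))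
  have hsm : ∀ (r : ℝ) (a : 𝔄), IsSelfAdjoint a → IsSelfAdjoint ((r : ℂ) • a) := by
    intro r a ha
    simp [IsSelfAdjoint, star_smul, ha.star_eq]
  have hconv : Convex ℝ (Set.range Φ) := by
    rintro _ ⟨a, rfl⟩ _ ⟨b, rfl⟩ s t _ _ _
    refine ⟨⟨(s : ℂ) • (a : 𝔄) + (t : ℂ) • (b : 𝔄), (hsm s a a.2).add (hsm t b b.2)⟩, ?_⟩
    ext i
    simp only [Φ, PiLp.add_apply, PiLp.smul_apply]
    rw [map_add, map_smul, map_smul]
    simp only [ContinuousLinearMap.add_apply, ContinuousLinearMap.smul_apply, Complex.coe_smul]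
  have hY : Y ∈ closure (Set.range Φ) := by
    by_contra hn
    obtain ⟨f, u, hu1, hu2⟩ := RCLike.geometric_hahn_banach_closed_point (𝕜 := ℂ)
      hconv.closure isClosed_closure hn
    let W : (XX ι K) := (InnerProductSpace.toDual ℂ (XX ι K)).symm f
    have hf : ∀ x, f x = ⟪W, x⟫_ℂ := by
      intro x
      simp [W]
    have hz : ∀ a : 𝔄, IsSelfAdjoint a → (∑ i, ⟪W i, σ a (v i)⟫_ℂ).re = 0 := by
      intro a ha
      by_contra hne
      set r := (∑ i, ⟪W i, σ a (v i)⟫_ℂ).re
      have := hu1 (Φ ⟨((u / r : ℝ) : ℂ) • a, hsm _ a ha⟩) (subset_closure ⟨_, rfl⟩)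
      rw [hf] at this
      have e : ⟪W, Φ ⟨((u / r : ℝ) : ℂ) • a, hsm _ a ha⟩⟫_ℂ =
          ((u / r : ℝ) : ℂ) * ∑ i, ⟪W i, σ a (v i)⟫_ℂ := by
        simp [Φ, PiLp.inner_apply, Finset.mul_sum, inner_smul_right]
      rw [e] at this
      simp only [RCLike.re_to_complex, Complex.re_ofReal_mul] at this
      rw [div_mul_cancel₀ _ hne] at this
      exact lt_irrefl _ this
    have hu0 : 0 < u := by
      have := hu1 (Φ 0) (subset_closure ⟨_, rfl⟩)
      have e : Φ 0 = 0 := by ext i; simp [Φ]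
      simpa [e] using this
    let v' : ι ⊕ ι → K := Sum.elim v (fun i => W i)
    let w' : ι ⊕ ι → K := Sum.elim (fun i => W i) v
    have hsa : ∀ S : K →L[ℂ] K, IsSelfAdjoint S →
        ∑ i, ⟪w' i, S (v' i)⟫_ℂ = ((2 * (∑ i, ⟪W i, S (v i)⟫_ℂ).re : ℝ) : ℂ) := by
      intro S hS
      rw [← Complex.add_conj, Fintype.sum_sum_type, map_sum]
      congr 1
      refine Finset.sum_congr rfl fun i _ => ?_
      simp only [w', v', Sum.elim_inr]
      rw [inner_conj_symm]
      exact (hS.isSymmetric (v i) (W i)).symm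
    have hall : ∀ a, ∑ i, ⟪w' i, σ a (v' i)⟫_ℂ = 0 := by
      intro a
      have h1 : IsSelfAdjoint (a + star a) := by simp [IsSelfAdjoint, add_comm]
      have h2 : IsSelfAdjoint (Complex.I • (a - star a)) := by
        simp [IsSelfAdjoint, star_smul, ← smul_neg]
      have e1 := hsa _ (h1.map σ)
      have e2 := hsa _ (h2.map σ)
      rw [hz _ h1] at e1
      rw [hz _ h2] at e2
      have e3 : a = (1 / 2 : ℂ) • ((a + star a) - Complex.I • (Complex.I • (a - star a))) := by
        rw [smul_smul, Complex.I_mul_I, neg_smul, one_smul, sub_neg_eq_add,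
          show (a + star a) + (a - star a) = (2 : ℂ) • a by rw [two_smul]; abel, smul_smul]
        simp
      have e4 : ∑ i, ⟪w' i, σ a (v' i)⟫_ℂ = (1 / 2 : ℂ) * (∑ i, ⟪w' i, σ (a + star a) (v' i)⟫_ℂ -
          Complex.I * ∑ i, ⟪w' i, σ (Complex.I • (a - star a)) (v' i)⟫_ℂ) := by
        rw [Finset.mul_sum, ← Finset.sum_sub_distrib, Finset.mul_sum]
        refine Finset.sum_congr rfl fun i _ => ?_
        conv_lhs => rw [e3]
        rw [map_smul, map_sub, map_smul]
        simp only [ContinuousLinearMap.smul_apply, ContinuousLinearMap.sub_apply,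
          inner_smul_right, inner_sub_right]
      rw [e4, e1, e2]
      simp
    have e5 := h.dens v' w' hall T
    rw [hsa T hT] at e5
    have e6 : (∑ i, ⟪W i, T (v i)⟫_ℂ).re = 0 := by
      have : (2 * (∑ i, ⟪W i, T (v i)⟫_ℂ).re : ℝ) = 0 := by exact_mod_cast e5
      linarith
    rw [hf] at hu2
    have e7 : ⟪W, Y⟫_ℂ = ∑ i, ⟪W i, T (v i)⟫_ℂ := by simp [Y, PiLp.inner_apply]
    rw [e7] at hu2
    simp only [RCLike.re_to_complex] at hu2
    linarith
  obtain ⟨_, ⟨a, rfl⟩, ha⟩ := Metric.mem_closure_iff.1 hY ε hε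
  refine ⟨a, a.2, fun i => ?_⟩
  rw [dist_comm, dist_eq_norm] at ha
  have := PiLp.norm_apply_le (Φ a - Y) i
  refine lt_of_le_of_lt ?_ ha
  simpa [Φ, Y] using this

end

end Crest.Agent.R120
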